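import Mathlib.Data.ZMod.Basic
import Mathlib.Tactic
import Vale.Agent.P329.Clock.Local

set_option linter.all false

/-!
Digits: small numbers times different powers of `b` are different modulo `b ^ D - 1`.
-/

namespace Vale.Agent.P329.H730

section digits

theorem dvd_core {b D t : ℕ} (hb : 2 ≤ b) (hD : 8 ≤ D) (ht1 : 1 ≤ t) (ht2 : 2 * t ≤ D) {x y : ℤ}
    (hx : |x| ≤ (b : ℤ) ^ 2) (hy : |y| ≤ (b : ℤ) ^ 2) (hn : ¬ (b : ℤ) ∣ x) :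
    ¬ ((b : ℤ) ^ D - 1) ∣ (x - (b : ℤ) ^ t * y) := by
  intro h
  have hb' : (2 : ℤ) ≤ b := by exact_mod_cast hb
  have hb1 : (1 : ℤ) ≤ b := by linarith
  have h1 : (b : ℤ) ^ (t + 2) ≤ (b : ℤ) ^ (D - 2) := pow_le_pow_right₀ hb1 (by omega)
  have h2 : (b : ℤ) ^ 2 ≤ (b : ℤ) ^ (D - 2) := pow_le_pow_right₀ hb1 (by omega)
  have h3 : (b : ℤ) ^ D = (b : ℤ) ^ (D - 2) * (b : ℤ) ^ 2 := by
    rw [← pow_add]; congr 1; omega
  have h4 : (4 : ℤ) ≤ (b : ℤ) ^ 2 := by nlinarith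
  have h5 : (1 : ℤ) ≤ (b : ℤ) ^ (D - 2) := one_le_pow₀ hb1
  have h6 : |x - (b : ℤ) ^ t * y| ≤ (b : ℤ) ^ 2 + (b : ℤ) ^ (t + 2) := by
    have e1 : |(b : ℤ) ^ t * y| ≤ (b : ℤ) ^ (t + 2) := by
      rw [abs_mul, abs_of_nonneg (by positivity), pow_add]
      exact mul_le_mul_of_nonneg_left hy (by positivity)
    calc |x - (b : ℤ) ^ t * y| ≤ |x| + |(b : ℤ) ^ t * y| := abs_sub _ _
      _ ≤ _ := add_le_add hx e1
  have h7 : x - (b : ℤ) ^ t * y = 0 := by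
    refine Int.eq_zero_of_abs_lt_dvd h (lt_of_le_of_lt h6 ?_)
    rw [h3]
    nlinarith
  apply hn
  have h8 : x = (b : ℤ) ^ t * y := by linarith
  rw [h8]
  exact Dvd.dvd.mul_right (dvd_pow_self _ (by omega)) _

theorem pow_cop (b D k : ℕ) (hD : 0 < D) (hb : 2 ≤ b) :
    IsCoprime ((b : ℤ) ^ D - 1) ((b : ℤ) ^ k) := by
  apply IsCoprime.pow_right
  refine ⟨-1, (b : ℤ) ^ (D - 1), ?_⟩
  have : (b : ℤ) ^ D = (b : ℤ) ^ (D - 1) * b := by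
    rw [← pow_succ]; congr 1; omega
  rw [this]
  ring

theorem dvd_two {b D k k' : ℕ} (hb : 2 ≤ b) (hD : 8 ≤ D) (hk : k < k') (hk' : k' < D) {x y : ℤ}
    (hx : |x| ≤ (b : ℤ) ^ 2) (hy : |y| ≤ (b : ℤ) ^ 2) (hnx : ¬ (b : ℤ) ∣ x)
    (hny : ¬ (b : ℤ) ∣ y) :
    ¬ ((b : ℤ) ^ D - 1) ∣ ((b : ℤ) ^ k * x - (b : ℤ) ^ k' * y) := by
  intro h
  obtain ⟨t, rfl⟩ : ∃ t, k' = k + t := ⟨k' - k, by omega⟩
  have h1 : ((b : ℤ) ^ D - 1) ∣ (x - (b : ℤ) ^ t * y) := by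
    have e : (b : ℤ) ^ k * x - (b : ℤ) ^ (k + t) * y = (b : ℤ) ^ k * (x - (b : ℤ) ^ t * y) := by
      rw [pow_add]; ring
    rw [e] at h
    exact (pow_cop b D k (by omega) hb).dvd_of_dvd_mul_left h
  by_cases ht : 2 * t ≤ D
  · exact dvd_core hb hD (by omega) ht hx hy hnx h1
  · refine dvd_core (t := D - t) hb hD (by omega) (by omega) hy hx hny ?_
    have e : y - (b : ℤ) ^ (D - t) * x =
        -((b : ℤ) ^ (D - t) * (x - (b : ℤ) ^ t * y)) - ((b : ℤ) ^ D - 1) * y := by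
      have : (b : ℤ) ^ D = (b : ℤ) ^ (D - t) * (b : ℤ) ^ t := by
        rw [← pow_add]; congr 1; omega
      rw [this]
      ring
    rw [e]
    exact (Dvd.dvd.mul_left h1 _).neg_right.sub (Dvd.intro _ rfl)

/-- the modulus -/
def md (b D : ℕ) : ℕ := b ^ D - 1

theorem md_cast {b D : ℕ} (hb : 2 ≤ b) : ((md b D : ℕ) : ℤ) = (b : ℤ) ^ D - 1 := by
  unfold md
  rw [Nat.cast_sub (Nat.one_le_pow _ _ (by omega))]
  push_cast
  ring

theorem md_pos {b D : ℕ} (hb : 2 ≤ b) (hD : 8 ≤ D) : 1 < md b D := by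
  unfold md
  have h1 : 2 ^ 8 ≤ b ^ D := le_trans (Nat.pow_le_pow_left hb 8) (Nat.pow_le_pow_right (by omega) hD)
  norm_num at h1
  omega

theorem pow_md {b D : ℕ} (hb : 2 ≤ b) : ((b : ZMod (md b D)) ^ D) = 1 := by
  have h : (((b : ℤ) ^ D - 1 : ℤ) : ZMod (md b D)) = 0 := by
    rw [← md_cast hb]
    push_cast
    exact ZMod.natCast_self _
  push_cast at h
  linear_combination h

theorem pow_mod {b D : ℕ} (hb : 2 ≤ b) (k : ℕ) :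
    ((b : ZMod (md b D)) ^ k) = (b : ZMod (md b D)) ^ (k % D) := by
  conv_lhs => rw [← Nat.div_add_mod k D, pow_add, pow_mul, pow_md hb, one_pow, one_mul]

theorem ne_two {b D k k' : ℕ} (hb : 2 ≤ b) (hD : 8 ≤ D) (hk : k < D) (hk' : k' < D)
    (hne : k ≠ k') {x y : ℤ}
    (hx : |x| ≤ (b : ℤ) ^ 2) (hy : |y| ≤ (b : ℤ) ^ 2) (hnx : ¬ (b : ℤ) ∣ x)
    (hny : ¬ (b : ℤ) ∣ y) :
    ((b : ZMod (md b D)) ^ k * (x : ZMod (md b D))) ≠ (b : ZMod (md b D)) ^ k' * (y : ZMod (md b D)) := by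
  intro h
  have h1 : (((b : ℤ) ^ k * x - (b : ℤ) ^ k' * y : ℤ) : ZMod (md b D)) = 0 := by
    push_cast
    rw [h, sub_self]
  rw [ZMod.intCast_zmod_eq_zero_iff_dvd, md_cast hb] at h1
  rcases lt_or_gt_of_ne hne with h2 | h2
  · exact dvd_two hb hD h2 hk' hx hy hnx hny h1
  · refine dvd_two hb hD h2 hk hy hx hny hnx ?_
    have h3 := Dvd.dvd.neg_right h1
    rwa [neg_sub] at h3

theorem ne_zero' {b D k : ℕ} (hb : 2 ≤ b) (hD : 8 ≤ D) {x : ℤ}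
    (hx : |x| ≤ (b : ℤ) ^ 2) (hnx : ¬ (b : ℤ) ∣ x) :
    ((b : ZMod (md b D)) ^ k * (x : ZMod (md b D))) ≠ 0 := by
  intro h
  have h1 : (((b : ℤ) ^ k * x : ℤ) : ZMod (md b D)) = 0 := by
    push_cast
    exact h
  rw [ZMod.intCast_zmod_eq_zero_iff_dvd, md_cast hb] at h1
  have h2 := (pow_cop b D k (by omega) hb).dvd_of_dvd_mul_left h1
  have h3 := dvd_core (t := 1) (y := 0) hb hD le_rfl (by omega) hx (by positivity) hnx
  apply h3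
  simpa using h2

end digits

end Vale.Agent.P329.H730
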