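import Vale.Agent.P329.H730.Dig

set_option linter.all false

/-!
The choice of the function of the states by the local lemma.
-/

namespace Vale.Agent.P329.H730

open Classical
open Vale.Agent.P329 Vale.Agent.P329.Clock

section avoid

variable {P V : Type} [Fintype P] [Fintype V] [Nonempty V]

theorem avoid_card {κ : Type} (N : κ → Set P) (Av : κ → (P → V) → Prop)
    (hA : ∀ k, Dep (N k) (Av k)) (a : P) (v : V) (Q : ℝ) (hQ1 : 1 ≤ Q) (T : Finset κ)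
    (ha : ∀ k ∈ T, a ∉ N k)
    (hd : ∀ k ∈ T, ∀ k' ∈ T, k ≠ k' → Disjoint (N k) (N k'))
    (hc : ∀ k ∈ T, nb (fun _ : P → V => True) ≤ nb (Av k) * Q) :
    nb (fun f => (∀ k ∈ T, ¬ Av k f) ∧ f a = v) ≤
      (1 - 1 / Q) ^ T.card * nb (fun f : P → V => f a = v) := by
  have hr0 : 0 ≤ 1 - 1 / Q := by
    have : 1 / Q ≤ 1 := by rw [div_le_one (by linarith)]; exact hQ1
    linarith
  have hΩ : 0 < nb (fun _ : P → V => True) := by
    unfold nb
    exact Nat.cast_pos.2 (Finset.card_pos.2 ⟨fun _ => Classical.arbitrary V, by simp⟩)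
  induction T using Finset.cons_induction_on with
  | empty =>
    have : nb (fun f => (∀ k ∈ (∅ : Finset κ), ¬ Av k f) ∧ f a = v) =
      nb (fun f : P → V => f a = v) := nb_congr fun f => by simp
    rw [this]; simp
  | cons k T hk ih =>
    have ih' := ih (fun k' hk' => ha k' (Finset.mem_cons_of_mem hk'))
      (fun k₁ h₁ k₂ h₂ hne => hd k₁ (Finset.mem_cons_of_mem h₁) k₂ (Finset.mem_cons_of_mem h₂) hne)
      (fun k' hk' => hc k' (Finset.mem_cons_of_mem hk'))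
    have h1 := nb_split (fun f => (∀ k ∈ T, ¬ Av k f) ∧ f a = v) (Av k)
    have h2 : nb (fun f => ((∀ k ∈ T, ¬ Av k f) ∧ f a = v) ∧ ¬ Av k f) =
        nb (fun f => (∀ j ∈ Finset.cons k T hk, ¬ Av j f) ∧ f a = v) := by
      refine nb_congr fun f => ?_
      simp only [Finset.mem_cons, forall_eq_or_imp]
      tauto
    have hd1 : Dep ((⋃ k' ∈ T, N k') ∪ {a})
        (fun f => (∀ k ∈ T, ¬ Av k f) ∧ f a = v) := by
      refine Dep.and (Dep.ball T fun k' _ => (hA k').not) ?_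
      intro f g hfg
      simp only
      rw [hfg a rfl]
    have hdis : Disjoint (N k) ((⋃ k' ∈ T, N k') ∪ {a}) := by
      rw [Set.disjoint_union_right, Set.disjoint_iUnion₂_right]
      refine ⟨fun k' hk' => hd k (Finset.mem_cons_self k T) k' (Finset.mem_cons_of_mem hk')
        (fun e => hk (e ▸ hk')), ?_⟩
      rw [Set.disjoint_singleton_right]
      exact ha k (Finset.mem_cons_self k T)
    have h3 := indep (hA k) hd1 hdis
    have h4 := hc k (Finset.mem_cons_self k T)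
    have h5 : nb (fun f => ((∀ k ∈ T, ¬ Av k f) ∧ f a = v) ∧ Av k f) =
        nb (fun f => Av k f ∧ ((∀ k ∈ T, ¬ Av k f) ∧ f a = v)) :=
      nb_congr fun f => and_comm
    rw [← h5] at h3
    rw [← h2, Finset.card_cons, pow_succ]
    set X := nb (fun f => (∀ k ∈ T, ¬ Av k f) ∧ f a = v)
    set Y := nb (fun f => ((∀ k ∈ T, ¬ Av k f) ∧ f a = v) ∧ Av k f)
    set Z := nb (fun f => ((∀ k ∈ T, ¬ Av k f) ∧ f a = v) ∧ ¬ Av k f)
    set Ω := nb (fun _ : P → V => True)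
    set A := nb (Av k)
    have hX0 : 0 ≤ X := nb_nonneg _
    have h6 : X / Q ≤ Y := by
      have h7 : X * Ω ≤ Y * Q * Ω := by
        calc X * Ω ≤ X * (A * Q) := mul_le_mul_of_nonneg_left h4 hX0
          _ = (A * X) * Q := by ring
          _ = Y * Ω * Q := by rw [← h3]
          _ = Y * Q * Ω := by ring
      have h8 := le_of_mul_le_mul_right h7 hΩ
      rw [div_le_iff₀ (by linarith)]
      exact h8
    have h9 : Z ≤ X * (1 - 1 / Q) := by
      have : X * (1 - 1 / Q) = X - X / Q := by ring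
      rw [this]; linarith
    calc Z ≤ X * (1 - 1 / Q) := h9
      _ ≤ ((1 - 1 / Q) ^ T.card * nb (fun f : P → V => f a = v)) * (1 - 1 / Q) :=
        mul_le_mul_of_nonneg_right ih' hr0
      _ = _ := by ring

end avoid

section core

variable {V : Type} [AddCommGroup V] {c : (V → V) → ℤ} {n : V → (V → V) → ℤ} {b D : ℕ}

/-- the states with a prescribed value -/
def Pre (c : (V → V) → ℤ) (n : V → (V → V) → ℤ) (R : ℕ) (p : ZMod R × (V → V)) (v : V) : Prop :=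
  ∃ (g B : V → V) (η : ℤ), (η = 0 ∨ η = 1) ∧ p = (((c g - η + n v B : ℤ) : ZMod R), B ∘ g)

theorem md_big (hb : 2 ≤ b) (hD : 8 ≤ D) : 2 * (b : ℤ) ^ 2 < (md b D : ℤ) := by
  rw [md_cast hb]
  have hb' : (2 : ℤ) ≤ b := by exact_mod_cast hb
  have h1 : (b : ℤ) ^ 8 ≤ (b : ℤ) ^ D := pow_le_pow_right₀ (by linarith) hD
  have h2 : (2 : ℤ) ^ 6 ≤ (b : ℤ) ^ 6 := pow_le_pow_left₀ (by norm_num) hb' 6
  have h3 : (b : ℤ) ^ 8 = b ^ 6 * b ^ 2 := by ring
  have h4 : (4 : ℤ) ≤ (b : ℤ) ^ 2 := by nlinarith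
  nlinarith

theorem eq_of_mod (hb : 2 ≤ b) (hD : 8 ≤ D) {x y : ℤ} (h : |x - y| < (md b D : ℤ))
    (he : ((x : ℤ) : ZMod (md b D)) = (y : ZMod (md b D))) : x = y := by
  have h1 : ((x - y : ℤ) : ZMod (md b D)) = 0 := by push_cast; rw [he, sub_self]
  rw [ZMod.intCast_zmod_eq_zero_iff_dvd] at h1
  exact sub_eq_zero.1 (Int.eq_zero_of_abs_lt_dvd h1 h)

theorem pow_inj' (hb : 2 ≤ b) (hD : 8 ≤ D) (k : ℕ) {x y : ℤ}
    (hx : |x| ≤ (b : ℤ) ^ 2) (hy : |y| ≤ (b : ℤ) ^ 2)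
    (he : (b : ZMod (md b D)) ^ k * (x : ZMod (md b D)) = (b : ZMod (md b D)) ^ k * (y : ZMod (md b D))) :
    x = y := by
  have h1 : (((b : ℤ) ^ k * (x - y) : ℤ) : ZMod (md b D)) = 0 := by
    push_cast
    rw [mul_sub, he, sub_self]
  rw [ZMod.intCast_zmod_eq_zero_iff_dvd, md_cast hb] at h1
  have h2 := (pow_cop b D k (by omega) hb).dvd_of_dvd_mul_left h1
  have h3 := md_big hb hD
  rw [md_cast hb] at h3
  have h4 : |x - y| ≤ |x| + |y| := abs_sub _ _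
  exact sub_eq_zero.1 (Int.eq_zero_of_abs_lt_dvd h2 (by linarith))

theorem Pre_unique (h : Dg c n b) (hD : 8 ≤ D) {p : ZMod (md b D) × (V → V)} {v v' : V}
    (h1 : Pre c n (md b D) p v) (h2 : Pre c n (md b D) p v') : v = v' := by
  obtain ⟨g, B, η, hη, rfl⟩ := h1
  obtain ⟨g', B', η', hη', he⟩ := h2
  simp only [Prod.mk.injEq] at he
  obtain ⟨h3, h4⟩ := h.inj3 (g := g) (g' := g') (v := v) (v' := v') (B := B) (B' := B') hη hη'
  refine h4 (sub_eq_zero.2 (eq_of_mod h.b2 hD ?_ he.1))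
  have h5 := md_big h.b2 hD
  have hb' : (2 : ℤ) ≤ b := by exact_mod_cast h.b2
  nlinarith

/-- prescribed values, and `F` elsewhere -/
noncomputable def fh (c : (V → V) → ℤ) (n : V → (V → V) → ℤ) (R : ℕ)
    (F : ZMod R × (V → V) → V) (p : ZMod R × (V → V)) : V :=
  if h : ∃ v, Pre c n R p v then h.choose else F p

theorem fh_pre (h : Dg c n b) (hD : 8 ≤ D) (F : ZMod (md b D) × (V → V) → V)
    {p : ZMod (md b D) × (V → V)} {v : V} (h1 : Pre c n (md b D) p v) :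
    fh c n (md b D) F p = v := by
  have h2 : ∃ v, Pre c n (md b D) p v := ⟨v, h1⟩
  unfold fh
  rw [dif_pos h2]
  exact Pre_unique h hD h2.choose_spec h1

/-- the class `k` serves -/
def Good (c : (V → V) → ℤ) (n : V → (V → V) → ℤ) (b k : ℕ) {R : ℕ} (s : ZMod R) (x : V → V)
    (y : V) (f : ZMod R × (V → V) → V) : Prop :=
  ∀ δ x' v', Rq c n b x (x y + f (s, x)) δ x' v' →
    f (s + (b : ZMod R) ^ k * (δ : ZMod R), x') = v' - x' y

/-- the states reached in class `k` -/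
def Nk' (V : Type) (b k : ℕ) {R : ℕ} (s : ZMod R) : Set (ZMod R × (V → V)) :=
  {p | ∃ δ : ℤ, |δ| ≤ (b : ℤ) ^ 2 ∧ ¬ (b : ℤ) ∣ δ ∧ p.1 = s + (b : ZMod R) ^ k * (δ : ZMod R)}

/-- the states reached -/
def Sb (V : Type) (b D : ℕ) {R : ℕ} (s : ZMod R) : Set (ZMod R × (V → V)) :=
  {p | ∃ k < D, ∃ δ : ℤ, |δ| ≤ (b : ℤ) ^ 2 ∧ p.1 = s + (b : ZMod R) ^ k * (δ : ZMod R)}

theorem fh_congr {R : ℕ} {F G : ZMod R × (V → V) → V} {p : ZMod R × (V → V)} (h : F p = G p) :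
    fh c n R F p = fh c n R G p := by
  unfold fh
  split_ifs
  · rfl
  · exact h

theorem Bad_dep' (h : Dg c n b) (hD : 0 < D) (R : ℕ) (s : ZMod R) (x : V → V) (y : V) :
    Dep (Sb V b D s) (fun F => ∀ k < D, ¬ Good c n b k s x y (fh c n R F)) := by
  intro F G hFG
  have e1 : fh c n R F (s, x) = fh c n R G (s, x) :=
    fh_congr (hFG _ ⟨0, hD, 0, by positivity, by simp⟩)
  refine forall₂_congr fun k hk => not_congr ?_
  unfold Good
  rw [e1]
  refine forall_congr' fun δ => forall_congr' fun x' => forall_congr' fun v' => ?_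
  constructor <;> intro h1 h2
  · rw [← h1 h2]
    exact (fh_congr (hFG _ ⟨k, hk, δ, h.bnd h2, rfl⟩)).symm
  · rw [← h1 h2]
    exact fh_congr (hFG _ ⟨k, hk, δ, h.bnd h2, rfl⟩)

/-- the required value -/
noncomputable def cv (c : (V → V) → ℤ) (n : V → (V → V) → ℤ) (b k : ℕ) {R : ℕ} (s : ZMod R)
    (x : V → V) (y v₀ : V) (p : ZMod R × (V → V)) : V :=
  if h : ∃ v', ∃ δ : ℤ, Rq c n b x v₀ δ p.2 v' ∧ p.1 = s + (b : ZMod R) ^ k * (δ : ZMod R) then
    h.choose - p.2 y else 0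

theorem cv_eq (h : Dg c n b) (hD : 8 ≤ D) {k : ℕ} {s : ZMod (md b D)} {x : V → V} {y v₀ : V}
    {δ : ℤ} {x' : V → V} {v' : V} (h1 : Rq c n b x v₀ δ x' v') :
    cv c n b k s x y v₀ (s + (b : ZMod (md b D)) ^ k * (δ : ZMod (md b D)), x') = v' - x' y := by
  have h2 : ∃ v'', ∃ δ' : ℤ, Rq c n b x v₀ δ' x' v'' ∧
      s + (b : ZMod (md b D)) ^ k * (δ : ZMod (md b D)) =
        s + (b : ZMod (md b D)) ^ k * (δ' : ZMod (md b D)) := ⟨v', δ, h1, rfl⟩
  unfold cv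
  rw [dif_pos h2]
  obtain ⟨δ', h3, h4⟩ := h2.choose_spec
  have h5 := pow_inj' h.b2 hD k (h.bnd h1) (h.bnd h3) (add_left_cancel h4)
  subst h5
  rw [h.fn h3 h1]

/-- the event which makes a clean class serve -/
def Av' (c : (V → V) → ℤ) (n : V → (V → V) → ℤ) (b k : ℕ) {R : ℕ} (s : ZMod R)
    (x : V → V) (y v₀ : V) (F : ZMod R × (V → V) → V) : Prop :=
  ∀ p ∈ Nk' V b k s, F p = cv c n b k s x y v₀ p

theorem Av_dep' (k : ℕ) {R : ℕ} (s : ZMod R) (x : V → V) (y v₀ : V) :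
    Dep (Nk' V b k s) (Av' c n b k s x y v₀) := by
  intro F G hFG
  refine forall₂_congr fun p hp => ?_
  rw [hFG p hp]

theorem Av_good (h : Dg c n b) (hD : 8 ≤ D) {k : ℕ} {s : ZMod (md b D)} {x : V → V} {y : V}
    (F : ZMod (md b D) × (V → V) → V)
    (hcl : ∀ p ∈ Nk' V b k s, ¬ ∃ v, Pre c n (md b D) p v)
    (hA : Av' c n b k s x y (x y + fh c n (md b D) F (s, x)) F) :
    Good c n b k s x y (fh c n (md b D) F) := by
  intro δ x' v' h1
  by_cases hd : (b : ℤ) ∣ δ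
  · obtain ⟨h2, h3, h4⟩ := h.dv h1 hd
    subst h2 h3 h4
    simp
  · have hp : (s + (b : ZMod (md b D)) ^ k * (δ : ZMod (md b D)), x') ∈ Nk' V b k s :=
      ⟨δ, h.bnd h1, hd, rfl⟩
    have h2 := hcl _ hp
    have h3 : fh c n (md b D) F (s + (b : ZMod (md b D)) ^ k * (δ : ZMod (md b D)), x') =
        F (s + (b : ZMod (md b D)) ^ k * (δ : ZMod (md b D)), x') := by
      unfold fh
      rw [dif_neg h2]
    rw [h3, hA _ hp]
    exact cv_eq h hD h1

theorem Nk_disj' (hb : 2 ≤ b) (hD : 8 ≤ D) {k k' : ℕ} (hk : k < D) (hk' : k' < D) (hne : k ≠ k')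
    (s : ZMod (md b D)) : Disjoint (Nk' V b k s) (Nk' V b k' s) := by
  rw [Set.disjoint_left]
  rintro p ⟨δ, h1, h2, h3⟩ ⟨δ', h1', h2', h3'⟩
  rw [h3] at h3'
  exact ne_two hb hD hk hk' hne h1 h1' h2 h2' (add_left_cancel h3')

theorem Nk_self (hb : 2 ≤ b) (hD : 8 ≤ D) (k : ℕ) (s : ZMod (md b D)) (x : V → V) :
    (s, x) ∉ Nk' V b k s := by
  rintro ⟨δ, h1, h2, h3⟩
  have h4 : (b : ZMod (md b D)) ^ k * (δ : ZMod (md b D)) = 0 := by
    have h5 : s + 0 = s + (b : ZMod (md b D)) ^ k * (δ : ZMod (md b D)) := by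
      rw [add_zero]; exact h3
    exact (add_left_cancel h5).symm
  exact ne_zero' hb hD h1 h2 h4

theorem clean_card [Fintype V] (hb : 2 ≤ b) (hD : 8 ≤ D) (s : ZMod (md b D)) :
    ∃ T : Finset (Fin D), (∀ k ∈ T, ∀ p ∈ Nk' V b (k : ℕ) s, ¬ ∃ v, Pre c n (md b D) p v) ∧
      D ≤ T.card + Fintype.card ((V → V) × (V → V) × V × Bool) := by
  refine ⟨(Finset.univ : Finset (Fin D)).filter
      (fun k : Fin D => ∀ p ∈ Nk' V b (k : ℕ) s, ¬ ∃ v, Pre c n (md b D) p v),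
      fun k hk => (Finset.mem_filter.1 hk).2, ?_⟩
  have h1 := Finset.card_filter_add_card_filter_not (s := (Finset.univ : Finset (Fin D)))
    (fun k : Fin D => ∀ p ∈ Nk' V b (k : ℕ) s, ¬ ∃ v, Pre c n (md b D) p v)
  rw [Finset.card_univ, Fintype.card_fin] at h1
  have h2 : ((Finset.univ : Finset (Fin D)).filter
      (fun k : Fin D => ¬ ∀ p ∈ Nk' V b (k : ℕ) s, ¬ ∃ v, Pre c n (md b D) p v)).card ≤
      (Finset.univ : Finset ((V → V) × (V → V) × V × Bool)).card := by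
    have h3 : ∀ k : Fin D, k ∈ (Finset.univ : Finset (Fin D)).filter
        (fun k : Fin D => ¬ ∀ p ∈ Nk' V b (k : ℕ) s, ¬ ∃ v, Pre c n (md b D) p v) →
        ∃ q : (V → V) × (V → V) × V × Bool, ∃ δ : ℤ, |δ| ≤ (b : ℤ) ^ 2 ∧ ¬ (b : ℤ) ∣ δ ∧
          ((c q.1 - (if q.2.2.2 then 1 else 0) + n q.2.2.1 q.2.1 : ℤ) : ZMod (md b D)) =
            s + (b : ZMod (md b D)) ^ (k : ℕ) * (δ : ZMod (md b D)) := by
      intro k hk
      rw [Finset.mem_filter] at hk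
      have hk2 := hk.2
      push Not at hk2
      obtain ⟨p, ⟨δ, h5, h6, h7⟩, v, g, B, η, hη, rfl⟩ := hk2
      rcases hη with rfl | rfl
      · exact ⟨(g, B, v, false), δ, h5, h6, by simpa using h7⟩
      · exact ⟨(g, B, v, true), δ, h5, h6, by simpa using h7⟩
    choose! q hq using h3
    refine Finset.card_le_card_of_injOn q (fun _ _ => Finset.mem_univ _) ?_
    intro k hk k' hk' he
    obtain ⟨δ, h5, h6, h7⟩ := hq k hk
    obtain ⟨δ', h5', h6', h7'⟩ := hq k' hk'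
    by_contra hne
    rw [he, h7'] at h7
    exact ne_two hb hD k'.2 k.2 (fun e => hne (Fin.ext e.symm)) h5' h5 h6' h6 (add_left_cancel h7)
  rw [Finset.card_univ] at h2
  omega

theorem Av_card' [Fintype V] (k : ℕ) {R : ℕ} [NeZero R] (s : ZMod R) (x : V → V) (y v₀ : V) :
    nb (fun _ : (ZMod R × (V → V)) → V => True) ≤ nb (Av' c n b k s x y v₀) *
      ((Fintype.card V : ℝ) ^ Fintype.card (Fin (2 * b ^ 2 + 1) × (V → V))) := by
  have h1 := fix_card (V := V) (ι := Fin (2 * b ^ 2 + 1) × (V → V))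
    (fun i => (s + (b : ZMod R) ^ k * (((i.1 : ℕ) : ℤ) - (b : ℤ) ^ 2 : ℤ), i.2))
    (Nk' V b k s) (by
      rintro ⟨p1, p2⟩ ⟨δ, h1, h2, h3⟩
      rw [abs_le] at h1
      refine ⟨(⟨(δ + (b : ℤ) ^ 2).toNat, ?_⟩, p2), ?_⟩
      · have h5 : ((δ + (b : ℤ) ^ 2).toNat : ℤ) = δ + (b : ℤ) ^ 2 :=
          Int.toNat_of_nonneg (by linarith)
        have h4 : (((δ + (b : ℤ) ^ 2).toNat : ℕ) : ℤ) < ((2 * b ^ 2 + 1 : ℕ) : ℤ) := by
          rw [h5]; push_cast; linarith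
        exact_mod_cast h4
      · have h5 : ((δ + (b : ℤ) ^ 2).toNat : ℤ) = δ + (b : ℤ) ^ 2 :=
          Int.toNat_of_nonneg (by linarith)
        simp only [Prod.mk.injEq, and_true]
        simp only at h3
        rw [h3, h5, add_sub_cancel_right]) (cv c n b k s x y v₀)
  exact h1

theorem Bad_card' [Fintype V] (h : Dg c n b) (hD : 8 ≤ D) [NeZero (md b D)]
    (s : ZMod (md b D)) (x : V → V) (y : V) (K : ℕ)
    (hK : K + Fintype.card ((V → V) × (V → V) × V × Bool) ≤ D) :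
    nb (fun F => ∀ k < D, ¬ Good c n b k s x y (fh c n (md b D) F)) ≤
      (1 - 1 / ((Fintype.card V : ℝ) ^ Fintype.card (Fin (2 * b ^ 2 + 1) × (V → V)))) ^ K *
      nb (fun _ : (ZMod (md b D) × (V → V)) → V => True) := by
  set Q : ℝ := (Fintype.card V : ℝ) ^ Fintype.card (Fin (2 * b ^ 2 + 1) × (V → V)) with hQ
  have hV : (1 : ℝ) ≤ Fintype.card V := by exact_mod_cast Fintype.card_pos
  have hQ1 : 1 ≤ Q := one_le_pow₀ hV
  have hQi : 0 ≤ 1 / Q := by positivity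
  have hr0 : 0 ≤ 1 - 1 / Q := by
    have : 1 / Q ≤ 1 := by rw [div_le_one (by linarith)]; exact hQ1
    linarith
  obtain ⟨T, hT, hTc'⟩ := clean_card (V := V) (c := c) (n := n) h.b2 hD s
  have hTc : K ≤ T.card := by omega
  rw [nb_fiber (s, x) (fun F => ∀ k < D, ¬ Good c n b k s x y (fh c n (md b D) F)),
    nb_fiber (s, x) (fun _ : (ZMod (md b D) × (V → V)) → V => True), Finset.mul_sum]
  refine Finset.sum_le_sum fun w _ => ?_
  have h2 : nb (fun f : (ZMod (md b D) × (V → V)) → V => True ∧ f (s, x) = w) =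
      nb (fun f : (ZMod (md b D) × (V → V)) → V => f (s, x) = w) := nb_congr fun f => by simp
  rw [h2]
  set v₀ : V := x y + fh c n (md b D) (fun _ => w) (s, x) with hv₀
  have h1 := avoid_card (fun k : Fin D => Nk' V b (k : ℕ) s)
    (fun k => Av' c n b (k : ℕ) s x y v₀) (fun k => Av_dep' (k : ℕ) s x y v₀) (s, x) w Q hQ1 T
    (fun k _ => Nk_self h.b2 hD _ s x)
    (fun k _ k' _ hne => Nk_disj' h.b2 hD k.2 k'.2 (fun e => hne (Fin.ext e)) s)
    (fun k _ => Av_card' (k : ℕ) s x y v₀)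
  have h3 : nb (fun f : (ZMod (md b D) × (V → V)) → V =>
      (∀ k < D, ¬ Good c n b k s x y (fh c n (md b D) f)) ∧ f (s, x) = w) ≤
      nb (fun f : (ZMod (md b D) × (V → V)) → V =>
        (∀ k ∈ T, ¬ Av' c n b (k : ℕ) s x y v₀ f) ∧ f (s, x) = w) := by
    refine nb_mono fun F hF => ⟨fun k hk hA => ?_, hF.2⟩
    refine hF.1 k k.2 (Av_good h hD F ?_ ?_)
    · exact hT k hk
    · have e : fh c n (md b D) F (s, x) = fh c n (md b D) (fun _ => w) (s, x) := fh_congr hF.2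
      rw [e]
      exact hA
  refine h3.trans (h1.trans ?_)
  refine mul_le_mul_of_nonneg_right ?_ (nb_nonneg _)
  exact pow_le_pow_of_le_one hr0 (by linarith) hTc

theorem Sb_card [Fintype V] [NeZero (md b D)] (s : ZMod (md b D)) :
    (Finset.univ.filter (fun j : ZMod (md b D) × (V → V) × V =>
      ¬ Disjoint (Sb V b D s) (Sb V b D j.1))).card ≤
      D * ((2 * b ^ 2 + 1) * (D * ((2 * b ^ 2 + 1) *
        (Fintype.card (V → V) * Fintype.card V)))) := by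
  have h1 : (Finset.univ.filter (fun j : ZMod (md b D) × (V → V) × V =>
      ¬ Disjoint (Sb V b D s) (Sb V b D j.1))) ⊆
      (Finset.univ : Finset (Fin D × Fin (2 * b ^ 2 + 1) × Fin D × Fin (2 * b ^ 2 + 1) ×
        (V → V) × V)).image
        (fun t => (s + (b : ZMod (md b D)) ^ (t.1 : ℕ) * (((t.2.1 : ℕ) : ℤ) - (b : ℤ) ^ 2 : ℤ) -
          (b : ZMod (md b D)) ^ (t.2.2.1 : ℕ) * (((t.2.2.2.1 : ℕ) : ℤ) - (b : ℤ) ^ 2 : ℤ),
          t.2.2.2.2)) := by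
    rintro ⟨s', u⟩ hb
    rw [Finset.mem_filter] at hb
    obtain ⟨p, ⟨k, hk, δ, hδ, hp⟩, ⟨k', hk', δ', hδ', hp'⟩⟩ := Set.not_disjoint_iff.1 hb.2
    rw [Finset.mem_image]
    have hh : ∀ δ : ℤ, |δ| ≤ (b : ℤ) ^ 2 →
        ∃ i : Fin (2 * b ^ 2 + 1), ((i : ℕ) : ℤ) - (b : ℤ) ^ 2 = δ := by
      intro δ h1
      rw [abs_le] at h1
      have h5 : ((δ + (b : ℤ) ^ 2).toNat : ℤ) = δ + (b : ℤ) ^ 2 :=
          Int.toNat_of_nonneg (by linarith)
      refine ⟨⟨(δ + (b : ℤ) ^ 2).toNat, ?_⟩, ?_⟩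
      · have h4 : (((δ + (b : ℤ) ^ 2).toNat : ℕ) : ℤ) < ((2 * b ^ 2 + 1 : ℕ) : ℤ) := by
          rw [h5]; push_cast; linarith
        exact_mod_cast h4
      · simp only
        rw [h5, add_sub_cancel_right]
    obtain ⟨i, hi⟩ := hh δ hδ
    obtain ⟨i', hi'⟩ := hh δ' hδ'
    refine ⟨(⟨k, hk⟩, i, ⟨k', hk'⟩, i', u), Finset.mem_univ _, ?_⟩
    simp only [Prod.mk.injEq, and_true]
    rw [hi, hi']
    rw [hp] at hp'
    linear_combination hp'
  refine (Finset.card_le_card h1).trans (Finset.card_image_le.trans ?_)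
  simp [Fintype.card_prod]

end core

theorem exists_core {V : Type} [Fintype V] [AddCommGroup V] {c : (V → V) → ℤ}
    {n : V → (V → V) → ℤ} {b : ℕ} (h : Dg c n b) :
    ∃ D : ℕ, 8 ≤ D ∧ ∃ f : ZMod (md b D) × (V → V) → V,
      (∀ g B v (η : ℤ), (η = 0 ∨ η = 1) →
        f (((c g - η + n v B : ℤ) : ZMod (md b D)), B ∘ g) = v) ∧
      ∀ s x y, ∃ k < D, Good c n b k s x y f := by
  set Q : ℝ := (Fintype.card V : ℝ) ^ Fintype.card (Fin (2 * b ^ 2 + 1) × (V → V)) with hQ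
  have hV : (1 : ℝ) ≤ Fintype.card V := by exact_mod_cast Fintype.card_pos
  have hQ1 : 1 ≤ Q := one_le_pow₀ hV
  set r : ℝ := 1 - 1 / Q with hr
  have hQi : 0 < 1 / Q := by positivity
  have hQi1 : 1 / Q ≤ 1 := by rw [div_le_one (by linarith)]; exact hQ1
  have hr0 : 0 ≤ r := by linarith
  have hr1 : |r| < 1 := by rw [abs_of_nonneg hr0]; linarith
  have ht := tendsto_pow_const_mul_const_pow_of_abs_lt_one 2 hr1
  set E : ℕ := Fintype.card ((V → V) × (V → V) × V × Bool) with hE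
  set C : ℝ := 4 * ((2 * b ^ 2 + 1 : ℕ) : ℝ) ^ 2 * (Fintype.card (V → V) * Fintype.card V) + 1
    with hC
  have hC0 : (0 : ℝ) ≤ 4 * ((2 * b ^ 2 + 1 : ℕ) : ℝ) ^ 2 *
    (Fintype.card (V → V) * Fintype.card V) := by positivity
  have hC1 : 1 ≤ C := by linarith
  have hev := (ht.eventually (gt_mem_nhds (show (0 : ℝ) < 1 / (4 * C) by positivity))).and
    (Filter.eventually_ge_atTop (E + 8))
  obtain ⟨K, hK, hK0⟩ := hev.exists
  have hKC : 4 * C * ((K : ℝ) ^ 2 * r ^ K) ≤ 1 := by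
    rw [lt_div_iff₀ (by positivity)] at hK
    linarith
  have hK1 : (1 : ℝ) ≤ (K : ℝ) ^ 2 := one_le_pow₀ (by
    have : 1 ≤ K := by omega
    exact_mod_cast this)
  have hrK : 0 ≤ r ^ K := pow_nonneg hr0 K
  obtain ⟨D, hDK⟩ : ∃ D, D = K + E := ⟨_, rfl⟩
  have hD : 8 ≤ D := by omega
  haveI : NeZero (md b D) := ⟨by have := md_pos h.b2 hD; omega⟩
  have hD2 : (D : ℝ) ^ 2 ≤ 4 * (K : ℝ) ^ 2 := by
    have h1 : (D : ℝ) ≤ 2 * K := by
      have : D ≤ 2 * K := by omega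
      exact_mod_cast this
    have h2 : (0 : ℝ) ≤ D := Nat.cast_nonneg _
    nlinarith
  refine ⟨D, hD, ?_⟩
  obtain ⟨F, hF⟩ := local_lemma (P := ZMod (md b D) × (V → V)) (V := V)
    (ι := ZMod (md b D) × (V → V) × V)
    (fun i => Sb V b D i.1)
    (fun i F => ∀ k < D, ¬ Good c n b k i.1 i.2.1 i.2.2 (fh c n (md b D) F))
    (fun i => Bad_dep' h (by omega) (md b D) i.1 i.2.1 i.2.2)
    (D * ((2 * b ^ 2 + 1) * (D * ((2 * b ^ 2 + 1) *
        (Fintype.card (V → V) * Fintype.card V))))) (r ^ K) hrK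
    (fun i => Sb_card i.1) (fun i => Bad_card' h hD i.1 i.2.1 i.2.2 K (by omega)) (by
      have h1 : (4 : ℝ) * ((D * ((2 * b ^ 2 + 1) * (D * ((2 * b ^ 2 + 1) *
          (Fintype.card (V → V) * Fintype.card V)))) : ℕ) : ℝ) * r ^ K
          = 4 * (((2 * b ^ 2 + 1 : ℕ) : ℝ) ^ 2 * (Fintype.card (V → V) * Fintype.card V)) *
            ((D : ℝ) ^ 2 * r ^ K) := by push_cast; ring
      rw [h1]
      set Y : ℝ := ((2 * b ^ 2 + 1 : ℕ) : ℝ) ^ 2 * (Fintype.card (V → V) * Fintype.card V) with hY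
      have hY0 : 0 ≤ Y := by positivity
      have hCY : 4 * Y ≤ C := by rw [hC, hY]; linarith
      have h3 : (D : ℝ) ^ 2 * r ^ K ≤ 4 * (K : ℝ) ^ 2 * r ^ K :=
        mul_le_mul_of_nonneg_right hD2 hrK
      have h4 : 0 ≤ (K : ℝ) ^ 2 * r ^ K := by positivity
      calc 4 * Y * ((D : ℝ) ^ 2 * r ^ K) ≤ 4 * Y * (4 * (K : ℝ) ^ 2 * r ^ K) :=
            mul_le_mul_of_nonneg_left h3 (by positivity)
        _ = 4 * (4 * Y) * ((K : ℝ) ^ 2 * r ^ K) := by ring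
        _ ≤ 4 * C * ((K : ℝ) ^ 2 * r ^ K) := by
            refine mul_le_mul_of_nonneg_right ?_ h4
            linarith
        _ ≤ 1 := hKC) (by
      have h3 : r ^ K ≤ (K : ℝ) ^ 2 * r ^ K := by nlinarith
      have h4 : 0 ≤ (K : ℝ) ^ 2 * r ^ K := by positivity
      nlinarith)
  refine ⟨fh c n (md b D) F, ?_, fun s x y => ?_⟩
  · intro g B v η hη
    exact fh_pre h hD F ⟨g, B, η, hη, rfl⟩
  · by_contra hne
    push Not at hne
    exact hF (s, x, y) hne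

/-- the condition on a cut after the content `A`, with number `L` before the cut in a zone of
index `k`, and strand `y` -/
structure Cond {V : Type} [AddCommGroup V] (c : (V → V) → ℤ) (n : V → (V → V) → ℤ) (b : ℕ) {R : ℕ}
    (f : ZMod R × (V → V) → V) (k : ℕ) (L : ZMod R) (A : V → V) (y : V) : Prop where
  s0 : ∀ (g B : V → V) (v : V), B (g y) +
    f (L + (b : ZMod R) ^ k * ((c g + n v B : ℤ) : ZMod R), B ∘ g ∘ A) = v
  s1 : ∀ (g g' B : V → V) (v : V) (η : ℤ), (η = 0 ∨ η = 1) → B (g' (g y)) +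
    f (L + (b : ZMod R) ^ k * ((c g + 1 : ℤ) : ZMod R) +
      (b : ZMod R) ^ (k + 1) * ((c g' - η + n v B : ℤ) : ZMod R), B ∘ g' ∘ g ∘ A) = v
  s2 : ∀ (g : V → V), g y + f (L + (b : ZMod R) ^ k * ((c g + 1 : ℤ) : ZMod R), g ∘ A) = 0

theorem Good.cond {V : Type} [AddCommGroup V] {c : (V → V) → ℤ} {n : V → (V → V) → ℤ} {b : ℕ}
    {R : ℕ} {f : ZMod R × (V → V) → V} {k : ℕ} {s : ZMod R} {x : V → V} {y : V}
    (h : Good c n b k s x y f) {A g₀ B₀ : V → V} (hx : B₀ ∘ g₀ ∘ A = x) :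
    Cond c n b f k (s - (b : ZMod R) ^ k * ((c g₀ + n (x y + f (s, x)) B₀ : ℤ) : ZMod R)) A
      (A y) := by
  refine ⟨fun g B v => ?_, fun g g' B v η hη => ?_, fun g => ?_⟩
  · have h1 := h _ _ _ (Rq.s0 A g₀ B₀ g B v hx)
    have e : s - (b : ZMod R) ^ k * ((c g₀ + n (x y + f (s, x)) B₀ : ℤ) : ZMod R) +
        (b : ZMod R) ^ k * ((c g + n v B : ℤ) : ZMod R) =
        s + (b : ZMod R) ^ k * ((c g - c g₀ + n v B - n (x y + f (s, x)) B₀ : ℤ) : ZMod R) := by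
      push_cast; ring
    rw [e, h1]
    simp
  · have h1 := h _ _ _ (Rq.s1 A g₀ B₀ g g' B v η hη hx)
    have e : s - (b : ZMod R) ^ k * ((c g₀ + n (x y + f (s, x)) B₀ : ℤ) : ZMod R) +
        (b : ZMod R) ^ k * ((c g + 1 : ℤ) : ZMod R) +
        (b : ZMod R) ^ (k + 1) * ((c g' - η + n v B : ℤ) : ZMod R) =
        s + (b : ZMod R) ^ k * ((c g + 1 - c g₀ - n (x y + f (s, x)) B₀ +
          b * (c g' - η + n v B) : ℤ) : ZMod R) := by
      push_cast; ring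
    rw [e, h1]
    simp
  · have h1 := h _ _ _ (Rq.s2 A g₀ B₀ g hx)
    have e : s - (b : ZMod R) ^ k * ((c g₀ + n (x y + f (s, x)) B₀ : ℤ) : ZMod R) +
        (b : ZMod R) ^ k * ((c g + 1 : ℤ) : ZMod R) =
        s + (b : ZMod R) ^ k * ((c g + 1 - c g₀ - n (x y + f (s, x)) B₀ : ℤ) : ZMod R) := by
      push_cast; ring
    rw [e, h1]
    simp

end Vale.Agent.P329.H730
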