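import Mathlib.Data.Set.Basic
import Mathlib.Data.List.Basic

namespace Vale.Agent.P329.H730

/-- There is a mark at the position `i` of `w`: the window of length `m` at the position `i`
belongs to `S`. -/
def MarkAt {α : Type} (S : Set (List α)) (m : ℕ) (w : List α) (i : ℕ) : Prop :=
  (w.drop i).take m ∈ S

/-- The words of length `h` in `T` are big marks: each of them starts with a mark (a window of
length `m` in `S`), and each factor of length `K` of such a word contains a mark. Here `h` may be
much larger than `K`; if `h = m = K` this only says that the words of length `h` in `T` belong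
to `S`. -/
def BigMarks {α : Type} (S T : Set (List α)) (m K h : ℕ) : Prop :=
  ∀ t ∈ T, t.length = h → MarkAt S m t 0 ∧
    ∀ i, i + K ≤ h → ∃ j, i ≤ j ∧ j + m ≤ i + K ∧ MarkAt S m t j

/-- `g` is a good block. It reaches from one big mark to the next one: it has the length `l + h`
and there are big marks exactly at the positions `0` and `l`. Inside, there are positions
`p 0, ..., p N` of marks such that between `p i` and `p (i + 1)` each mark belongs to the cluster of
`p i` (it follows a mark of the cluster at distance less than `K`), and the distance from each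
mark of this cluster to `p (i + 1)` is at least `N * m + 2 * K`. -/
def GoodBlock {α : Type} (S T : Set (List α)) (m K h N : ℕ) (g : List α) : Prop :=
  ∃ (l : ℕ) (p : ℕ → ℕ), g.length = l + h ∧ (∀ i ≤ l, MarkAt T h g i ↔ i = 0 ∨ i = l) ∧
    p N ≤ l ∧ (∀ i ≤ N, MarkAt S m g (p i)) ∧
    ∀ i < N, p i + (N * m + 2 * K) ≤ p (i + 1) ∧
      ∀ j, p i < j → j < p (i + 1) → MarkAt S m g j → j + (N * m + 2 * K) ≤ p (i + 1) ∧
        ∃ j', p i ≤ j' ∧ j' < j ∧ j < j' + K ∧ MarkAt S m g j'

end Vale.Agent.P329.H730
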