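import Vale.Agent.P329.H730.Arith
import Vale.Agent.P329.Clock.Final

set_option linter.all false

/-!
The numbers attached to contents and values, and the requirements on the states.
-/

namespace Vale.Agent.P329.H730

open Vale.Agent.P329 Vale.Agent.P329.Clock

section pow4

theorem four_sidon {i j k l : ℕ} (h : (4 : ℤ) ^ i + 4 ^ j = 4 ^ k + 4 ^ l) :
    (i = k ∧ j = l) ∨ (i = l ∧ j = k) := by
  have e : ∀ a : ℕ, (4 : ℤ) ^ a = ((2 ^ (2 * a) : ℕ) : ℤ) := by
    intro a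
    push_cast
    rw [pow_mul]
    norm_num
  rw [e, e, e, e, ← Nat.cast_add, ← Nat.cast_add, Nat.cast_inj] at h
  rcases two_pow_sidon h with ⟨h1, h2⟩ | ⟨h1, h2⟩
  · left; omega
  · right; omega

theorem four_ne {i j k : ℕ} (h : (4 : ℤ) ^ i + 4 ^ j = 4 ^ k) : False := by
  have h' : 4 ^ i + 4 ^ j = 4 ^ k := by exact_mod_cast h
  clear h
  wlog hij : i ≤ j generalizing i j with H
  · exact H (by rw [add_comm]; exact h') (by omega)
  have hi : 4 ^ i ≤ 4 ^ j := Nat.pow_le_pow_right (by norm_num) hij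
  have hi0 : 0 < 4 ^ i := by positivity
  rcases Nat.lt_or_ge j k with h1 | h1
  · have h2 : 4 ^ (j + 1) ≤ 4 ^ k := Nat.pow_le_pow_right (by norm_num) h1
    rw [pow_succ] at h2
    omega
  · have h2 : 4 ^ k ≤ 4 ^ j := Nat.pow_le_pow_right (by norm_num) h1
    omega

theorem small_mul {Q r X : ℤ} (hQ : |r| < Q) (h : r + Q * X = 0) : X = 0 ∧ r = 0 := by
  have h1 : Q ∣ r := ⟨-X, by linarith⟩
  have h2 : r = 0 := Int.eq_zero_of_abs_lt_dvd h1 hQ
  have h3 : 0 < Q := lt_of_le_of_lt (abs_nonneg _) hQ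
  refine ⟨?_, h2⟩
  rw [h2, zero_add] at h
  exact (mul_eq_zero.1 h).resolve_left h3.ne'

end pow4

section req

variable {V : Type} [AddCommGroup V]

/-- the requirements on the states reached from a state with product `x` and value `v₀` -/
inductive Rq (c : (V → V) → ℤ) (n : V → (V → V) → ℤ) (b : ℕ) (x : V → V) (v₀ : V) :
    ℤ → (V → V) → V → Prop
  | s0 (A g₀ B₀ g B : V → V) (v : V) (h : B₀ ∘ g₀ ∘ A = x) :
      Rq c n b x v₀ (c g - c g₀ + n v B - n v₀ B₀) (B ∘ g ∘ A) v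
  | s1 (A g₀ B₀ g g' B : V → V) (v : V) (η : ℤ) (hη : η = 0 ∨ η = 1) (h : B₀ ∘ g₀ ∘ A = x) :
      Rq c n b x v₀ (c g + 1 - c g₀ - n v₀ B₀ + b * (c g' - η + n v B)) (B ∘ g' ∘ g ∘ A) v
  | s2 (A g₀ B₀ g : V → V) (h : B₀ ∘ g₀ ∘ A = x) :
      Rq c n b x v₀ (c g + 1 - c g₀ - n v₀ B₀) (g ∘ A) 0

/-- numbers which can be told apart -/
structure Dg (c : (V → V) → ℤ) (n : V → (V → V) → ℤ) (b : ℕ) : Prop where
  b2 : 2 ≤ b
  bnd : ∀ {x v₀ δ x' v'}, Rq c n b x v₀ δ x' v' → |δ| ≤ (b : ℤ) ^ 2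
  dv : ∀ {x v₀ δ x' v'}, Rq c n b x v₀ δ x' v' → (b : ℤ) ∣ δ → δ = 0 ∧ x' = x ∧ v' = v₀
  fn : ∀ {x v₀ δ x' v' x'' v''}, Rq c n b x v₀ δ x' v' → Rq c n b x v₀ δ x'' v'' → v' = v''
  inj3 : ∀ {g g' v v' B B'} {η η' : ℤ}, (η = 0 ∨ η = 1) → (η' = 0 ∨ η' = 1) →
    |(c g - η + n v B) - (c g' - η' + n v' B')| < b ∧
      ((c g - η + n v B) - (c g' - η' + n v' B') = 0 → v = v')

theorem exists_Dg (V : Type) [Fintype V] [AddCommGroup V] :
    ∃ (c : (V → V) → ℤ) (n : V → (V → V) → ℤ) (b : ℕ), Dg c n b := by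
  classical
  set C : ℕ := Fintype.card (V → V) with hC
  set I : ℕ := Fintype.card (V × (V → V)) with hI
  let e1 : (V → V) → ℕ := fun g => (Fintype.equivFin (V → V) g : ℕ)
  let e2 : V × (V → V) → ℕ := fun p => (Fintype.equivFin (V × (V → V)) p : ℕ)
  have h1 : ∀ g, e1 g < C := fun g => (Fintype.equivFin (V → V) g).2
  have h2 : ∀ p, e2 p < I := fun p => (Fintype.equivFin (V × (V → V)) p).2
  have h1i : ∀ g g', e1 g = e1 g' → g = g' := fun g g' h =>
    (Fintype.equivFin (V → V)).injective (Fin.ext h)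
  have h2i : ∀ g g', e2 g = e2 g' → g = g' := fun g g' h =>
    (Fintype.equivFin (V × (V → V))).injective (Fin.ext h)
  set Q : ℤ := 4 * C + 8 with hQ
  set H : ℤ := Q * 4 ^ I + Q with hH
  obtain ⟨c, hc⟩ : ∃ c : (V → V) → ℤ, ∀ g, c g = e1 g := ⟨_, fun _ => rfl⟩
  obtain ⟨n, hn⟩ : ∃ n : V → (V → V) → ℤ, ∀ v B, n v B = Q * 4 ^ (e2 (v, B)) :=
    ⟨_, fun _ _ => rfl⟩
  have hC0 : (0 : ℤ) ≤ C := Int.natCast_nonneg _
  have hQ0 : 8 ≤ Q := by rw [hQ]; linarith
  have hc0 : ∀ g, 0 ≤ c g := fun g => by rw [hc]; exact Int.natCast_nonneg _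
  have hcC : ∀ g, c g < C := fun g => by rw [hc]; exact_mod_cast h1 g
  have hnQ : ∀ v B, Q ≤ n v B := by
    intro v B
    rw [hn]
    have : (1 : ℤ) ≤ 4 ^ (e2 (v, B)) := one_le_pow₀ (by norm_num)
    nlinarith
  have hnI : ∀ v B, n v B ≤ Q * 4 ^ I := by
    intro v B
    rw [hn]
    have : (4 : ℤ) ^ (e2 (v, B)) ≤ 4 ^ I := pow_le_pow_right₀ (by norm_num) (h2 _).le
    exact mul_le_mul_of_nonneg_left this (by linarith)
  have h4I : (1 : ℤ) ≤ 4 ^ I := one_le_pow₀ (by norm_num)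
  have hH0 : 16 ≤ H := by rw [hH]; nlinarith
  obtain ⟨b, hb⟩ : ∃ b : ℕ, (b : ℤ) = 4 * H := ⟨(4 * H).toNat, Int.toNat_of_nonneg (by linarith)⟩
  have hcinj : ∀ g g', c g = c g' → g = g' := by
    intro g g' h
    rw [hc, hc] at h
    exact h1i _ _ (by exact_mod_cast h)
  refine ⟨c, n, b, ?_, ?_, ?_, ?_, ?_⟩
  · have : (2 : ℤ) ≤ b := by rw [hb]; linarith
    exact_mod_cast this
  · -- bnd
    intro x v₀ δ x' v' h
    have hbb : (b : ℤ) ^ 2 = 16 * (H * H) := by rw [hb]; ring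
    have hHH : 16 * H ≤ H * H := by nlinarith
    cases h with
    | s0 A g₀ B₀ g B v h =>
      have := hc0 g; have := hcC g; have := hc0 g₀; have := hcC g₀
      have := hnQ v' B; have := hnI v' B; have := hnQ v₀ B₀; have := hnI v₀ B₀
      rw [abs_le]
      constructor <;> linarith
    | s1 A g₀ B₀ g g' B v η hη h =>
      have := hc0 g; have := hcC g; have := hc0 g₀; have := hcC g₀
      have := hc0 g'; have := hcC g'
      have := hnQ v' B; have := hnI v' B; have := hnQ v₀ B₀; have := hnI v₀ B₀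
      have hη1 : 0 ≤ η ∧ η ≤ 1 := by rcases hη with rfl | rfl <;> norm_num
      have e1 : c g' - η + n v' B ≤ H := by linarith [hη1.1]
      have e2 : 0 ≤ c g' - η + n v' B := by linarith [hη1.2]
      have e3 : (b : ℤ) * (c g' - η + n v' B) ≤ 4 * (H * H) := by
        rw [hb]; nlinarith
      have e4 : 0 ≤ (b : ℤ) * (c g' - η + n v' B) := mul_nonneg (Int.natCast_nonneg _) e2
      rw [abs_le]
      constructor <;> linarith
    | s2 A g₀ B₀ g h =>
      have := hc0 g; have := hcC g; have := hc0 g₀; have := hcC g₀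
      have := hnQ v₀ B₀; have := hnI v₀ B₀
      rw [abs_le]
      constructor <;> linarith
  · -- dv
    intro x v₀ δ x' v' h hd
    cases h with
    | s0 A g₀ B₀ g B v h =>
      have := hc0 g; have := hcC g; have := hc0 g₀; have := hcC g₀
      have := hnQ v' B; have := hnI v' B; have := hnQ v₀ B₀; have := hnI v₀ B₀
      have h0 : c g - c g₀ + n v' B - n v₀ B₀ = 0 := by
        refine Int.eq_zero_of_abs_lt_dvd hd ?_
        rw [hb, abs_lt]
        constructor <;> linarith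
      have h3 : (c g - c g₀) + Q * (4 ^ (e2 (v', B)) - 4 ^ (e2 (v₀, B₀))) = 0 := by
        rw [hn, hn] at h0
        linarith
      obtain ⟨h4, h5⟩ := small_mul (by rw [abs_lt]; constructor <;> linarith) h3
      have h6 : e2 (v', B) = e2 (v₀, B₀) := by
        have h7 : (4 : ℤ) ^ (e2 (v', B)) = 4 ^ (e2 (v₀, B₀)) := by linarith
        exact Int.pow_right_injective (by norm_num) h7
      have h8 := h2i _ _ h6
      have h9 := hcinj g g₀ (by linarith)
      simp only [Prod.mk.injEq] at h8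
      refine ⟨h0, ?_, h8.1⟩
      rw [h9, h8.2, h]
    | s1 A g₀ B₀ g g' B v η hη h =>
      exfalso
      have := hc0 g; have := hcC g; have := hc0 g₀; have := hcC g₀
      have := hnQ v₀ B₀; have := hnI v₀ B₀
      have h1 : (b : ℤ) ∣ c g + 1 - c g₀ - n v₀ B₀ := by
        have h3 := dvd_sub hd (Dvd.intro (c g' - η + n v' B) rfl)
        rwa [add_sub_cancel_right] at h3
      have h0 : c g + 1 - c g₀ - n v₀ B₀ = 0 := by
        refine Int.eq_zero_of_abs_lt_dvd h1 ?_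
        rw [hb, abs_lt]
        constructor <;> linarith
      linarith
    | s2 A g₀ B₀ g h =>
      exfalso
      have := hc0 g; have := hcC g; have := hc0 g₀; have := hcC g₀
      have := hnQ v₀ B₀; have := hnI v₀ B₀
      have h0 : c g + 1 - c g₀ - n v₀ B₀ = 0 := by
        refine Int.eq_zero_of_abs_lt_dvd hd ?_
        rw [hb, abs_lt]
        constructor <;> linarith
      linarith
  · -- fn
    have k00 : ∀ (v₀ : V) (g₀ B₀ g B g₁ B₁ g' B' : V → V) (v v' : V),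
        c g - c g₀ + n v B - n v₀ B₀ = c g' - c g₁ + n v' B' - n v₀ B₁ → v = v' := by
      intro v₀ g₀ B₀ g B g₁ B₁ g' B' v v' h
      have := hc0 g; have := hcC g; have := hc0 g₀; have := hcC g₀
      have := hc0 g'; have := hcC g'; have := hc0 g₁; have := hcC g₁
      have h3 : (c g - c g₀ - (c g' - c g₁)) + Q * ((4 ^ (e2 (v, B)) + 4 ^ (e2 (v₀, B₁))) -
          (4 ^ (e2 (v', B')) + 4 ^ (e2 (v₀, B₀)))) = 0 := by
        rw [hn, hn, hn, hn] at h
        linarith
      obtain ⟨h4, -⟩ := small_mul (by rw [abs_lt]; constructor <;> linarith) h3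
      rcases four_sidon (sub_eq_zero.1 h4) with ⟨h5, h6⟩ | ⟨h5, h6⟩
      · have := h2i _ _ h5
        simp only [Prod.mk.injEq] at this
        exact this.1
      · have e1 := h2i _ _ h5
        have e2 := h2i _ _ h6
        simp only [Prod.mk.injEq] at e1 e2
        rw [e1.1, e2.1]
    have k01 : ∀ (v₀ : V) (g₀ B₀ g B g₁ B₁ g' g'' B' : V → V) (v v' : V) (η : ℤ),
        (η = 0 ∨ η = 1) → c g - c g₀ + n v B - n v₀ B₀ =
          c g' + 1 - c g₁ - n v₀ B₁ + b * (c g'' - η + n v' B') → False := by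
      intro v₀ g₀ B₀ g B g₁ B₁ g' g'' B' v v' η hη h
      have := hc0 g; have := hcC g; have := hc0 g₀; have := hcC g₀
      have := hc0 g'; have := hcC g'; have := hc0 g₁; have := hcC g₁
      have := hc0 g''; have := hcC g''
      have := hnQ v B; have := hnI v B; have := hnQ v₀ B₀; have := hnI v₀ B₀
      have := hnQ v₀ B₁; have := hnI v₀ B₁; have := hnQ v' B'
      have hη1 : 0 ≤ η ∧ η ≤ 1 := by rcases hη with rfl | rfl <;> norm_num
      have h3 : (c g' + 1 - c g₁ - n v₀ B₁ - (c g - c g₀ + n v B - n v₀ B₀)) +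
          b * (c g'' - η + n v' B') = 0 := by linarith
      obtain ⟨h4, -⟩ := small_mul (by rw [hb, abs_lt]; constructor <;> linarith) h3
      linarith [hη1.2]
    have k02 : ∀ (v₀ : V) (g₀ B₀ g B g₁ B₁ g' : V → V) (v : V),
        c g - c g₀ + n v B - n v₀ B₀ = c g' + 1 - c g₁ - n v₀ B₁ → False := by
      intro v₀ g₀ B₀ g B g₁ B₁ g' v h
      have := hc0 g; have := hcC g; have := hc0 g₀; have := hcC g₀
      have := hc0 g'; have := hcC g'; have := hc0 g₁; have := hcC g₁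
      have h3 : (c g - c g₀ - (c g' + 1 - c g₁)) + Q * ((4 ^ (e2 (v, B)) + 4 ^ (e2 (v₀, B₁))) -
          4 ^ (e2 (v₀, B₀))) = 0 := by
        rw [hn, hn, hn] at h
        linarith
      obtain ⟨h4, -⟩ := small_mul (by rw [abs_lt]; constructor <;> linarith) h3
      exact four_ne (sub_eq_zero.1 h4)
    have k11 : ∀ (v₀ : V) (g₀ B₀ g g₂ B g₁ B₁ g' g'' B' : V → V) (v v' : V) (η η' : ℤ),
        (η = 0 ∨ η = 1) → (η' = 0 ∨ η' = 1) →
        c g + 1 - c g₀ - n v₀ B₀ + b * (c g₂ - η + n v B) =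
          c g' + 1 - c g₁ - n v₀ B₁ + b * (c g'' - η' + n v' B') → v = v' := by
      intro v₀ g₀ B₀ g g₂ B g₁ B₁ g' g'' B' v v' η η' hη hη' h
      have := hc0 g; have := hcC g; have := hc0 g₀; have := hcC g₀
      have := hc0 g'; have := hcC g'; have := hc0 g₁; have := hcC g₁
      have := hc0 g''; have := hcC g''; have := hc0 g₂; have := hcC g₂
      have := hnQ v B; have := hnI v B; have := hnQ v₀ B₀; have := hnI v₀ B₀
      have := hnQ v₀ B₁; have := hnI v₀ B₁; have := hnQ v' B'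
      have hη1 : 0 ≤ η ∧ η ≤ 1 := by rcases hη with rfl | rfl <;> norm_num
      have hη2 : 0 ≤ η' ∧ η' ≤ 1 := by rcases hη' with rfl | rfl <;> norm_num
      have h3 : (c g + 1 - c g₀ - n v₀ B₀ - (c g' + 1 - c g₁ - n v₀ B₁)) +
          b * ((c g₂ - η + n v B) - (c g'' - η' + n v' B')) = 0 := by linarith
      obtain ⟨h4, -⟩ := small_mul (by rw [hb, abs_lt]; constructor <;> linarith) h3
      have h5 : ((c g₂ - η) - (c g'' - η')) + Q * (4 ^ (e2 (v, B)) - 4 ^ (e2 (v', B'))) = 0 := by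
        rw [hn, hn] at h4
        linarith
      obtain ⟨h6, -⟩ := small_mul (by rw [abs_lt]; constructor <;> linarith [hη1.1, hη1.2, hη2.1, hη2.2]) h5
      have h7 : (4 : ℤ) ^ (e2 (v, B)) = 4 ^ (e2 (v', B')) := by linarith
      have h8 := h2i _ _ (Int.pow_right_injective (by norm_num) h7)
      simp only [Prod.mk.injEq] at h8
      exact h8.1
    have k12 : ∀ (v₀ : V) (g₀ B₀ g g₂ B g₁ B₁ g' : V → V) (v : V) (η : ℤ),
        (η = 0 ∨ η = 1) →
        c g + 1 - c g₀ - n v₀ B₀ + b * (c g₂ - η + n v B) = c g' + 1 - c g₁ - n v₀ B₁ →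
          False := by
      intro v₀ g₀ B₀ g g₂ B g₁ B₁ g' v η hη h
      have := hc0 g; have := hcC g; have := hc0 g₀; have := hcC g₀
      have := hc0 g'; have := hcC g'; have := hc0 g₁; have := hcC g₁
      have := hc0 g₂; have := hcC g₂
      have := hnQ v B; have := hnQ v₀ B₀; have := hnI v₀ B₀
      have := hnQ v₀ B₁; have := hnI v₀ B₁
      have hη1 : 0 ≤ η ∧ η ≤ 1 := by rcases hη with rfl | rfl <;> norm_num
      have h3 : (c g + 1 - c g₀ - n v₀ B₀ - (c g' + 1 - c g₁ - n v₀ B₁)) +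
          b * (c g₂ - η + n v B) = 0 := by linarith
      obtain ⟨h4, -⟩ := small_mul (by rw [hb, abs_lt]; constructor <;> linarith) h3
      linarith [hη1.2]
    have main : ∀ {x v₀ δ x' v'}, Rq c n b x v₀ δ x' v' → ∀ {δ' x'' v''},
        Rq c n b x v₀ δ' x'' v'' → δ = δ' → v' = v'' := by
      intro x v₀ δ x' v' h δ' x'' v'' h' he
      cases h with
      | s0 A g₀ B₀ g B v h =>
        cases h' with
        | s0 A' g₁ B₁ g' B' v1 h' => exact k00 _ _ _ _ _ _ _ _ _ _ _ he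
        | s1 A' g₁ B₁ g' g'' B' v1 η hη h' => exact (k01 _ _ _ _ _ _ _ _ _ _ _ _ _ hη he).elim
        | s2 A' g₁ B₁ g' h' => exact (k02 _ _ _ _ _ _ _ _ _ he).elim
      | s1 A g₀ B₀ g g₂ B v η hη h =>
        cases h' with
        | s0 A' g₁ B₁ g' B' v1 h' => exact (k01 _ _ _ _ _ _ _ _ _ _ _ _ _ hη he.symm).elim
        | s1 A' g₁ B₁ g' g'' B' v1 η' hη' h' =>
          exact k11 _ _ _ _ _ _ _ _ _ _ _ _ _ _ _ hη hη' he
        | s2 A' g₁ B₁ g' h' => exact (k12 _ _ _ _ _ _ _ _ _ _ _ hη he).elim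
      | s2 A g₀ B₀ g h =>
        cases h' with
        | s0 A' g₁ B₁ g' B' v1 h' => exact (k02 _ _ _ _ _ _ _ _ _ he.symm).elim
        | s1 A' g₁ B₁ g' g'' B' v1 η' hη' h' =>
          exact (k12 _ _ _ _ _ _ _ _ _ _ _ hη' he.symm).elim
        | s2 A' g₁ B₁ g' h' => rfl
    intro x v₀ δ x' v' x'' v'' h h'
    exact main h h' rfl
  · -- inj3
    intro g g' v v' B B' η η' hη hη'
    have := hc0 g; have := hcC g; have := hc0 g'; have := hcC g'
    have := hnQ v B; have := hnI v B; have := hnQ v' B'; have := hnI v' B'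
    have hη1 : 0 ≤ η ∧ η ≤ 1 := by rcases hη with rfl | rfl <;> norm_num
    have hη2 : 0 ≤ η' ∧ η' ≤ 1 := by rcases hη' with rfl | rfl <;> norm_num
    refine ⟨?_, fun h => ?_⟩
    · rw [hb, abs_lt]
      constructor <;> linarith [hη1.1, hη1.2, hη2.1, hη2.2]
    · have h5 : ((c g - η) - (c g' - η')) + Q * (4 ^ (e2 (v, B)) - 4 ^ (e2 (v', B'))) = 0 := by
        rw [hn, hn] at h
        linarith
      obtain ⟨h6, -⟩ := small_mul (by rw [abs_lt]; constructor <;> linarith [hη1.1, hη1.2, hη2.1, hη2.2]) h5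
      have h7 : (4 : ℤ) ^ (e2 (v, B)) = 4 ^ (e2 (v', B')) := by linarith
      have h8 := h2i _ _ (Int.pow_right_injective (by norm_num) h7)
      simp only [Prod.mk.injEq] at h8
      exact h8.1

end req

end Vale.Agent.P329.H730
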