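import Vale.Agent.P329.H730.Inst

set_option linter.all false

/-!
Regular languages on words with marks and big marks, without a clock.
-/

namespace Vale.Agent.P329.H730

open Vale.Agent.P329 Vale.Agent.P329.Slow Vale.Agent.P329.Mark Vale.Agent.P329.Clock

theorem BigMarks.bg {α : Type} {S T : Set (List α)} {m K h : ℕ} (hB : BigMarks S T m K h)
    (hm : 0 < m) (hK : m ≤ K) (hh : m ≤ h) : Bg S T m K h :=
  ⟨hm, hK, hh, fun t ht hl => (hB t ht hl).1, fun t ht hl => (hB t ht hl).2⟩

/-- evaluation of linear actions -/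
theorem cls_free (V : Type) [Finite V] [AddCommGroup V] : ∃ N : ℕ,
    ∀ (α : Type) [Finite α] (P : Set (List α) → Prop), Cls P →
    ∀ (M : α → V →+ V) (S T : Set (List α)) (m K h : ℕ), Bg S T m K h →
      ∀ (C : ℕ) (x : V) (F : Set V),
        P {w : List α | Dom {g | GoodBlock S T m K h N g} C w ∧ act M w x ∈ F} := by
  classical
  have hV : Fintype V := Fintype.ofFinite V
  obtain ⟨c, n, b, hD⟩ := exists_Dg V
  obtain ⟨D, hD8, f, hf1, hf2⟩ := exists_core hD
  haveI : NeZero (md b D) := ⟨by have := md_pos hD.b2 hD8; omega⟩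
  refine ⟨D + 2 + (md b D + 3), fun α _ P hP M S T m K h hB C x F => ?_⟩
  have S' := sysU (M := M) (bnd := C) hB hf1 hf2 (fun k => pow_mod hD.b2 k)
    (N := D + 2 + (md b D + 3)) (by omega) (by omega)
  have h1 := S'.cls_act hP M Eu_act C x F
  have h3 : {w : List α | Dom {g | GoodBlock S T m K h (D + 2 + (md b D + 3)) g} C w ∧
      act M w x ∈ F} = {w : List α | Dom {g | GoodBlock S T m K h (D + 2 + (md b D + 3)) g ∧
        g.length ≤ C} C w ∧ act M w x ∈ F} := by
    ext w
    refine and_congr ⟨?_, ?_⟩ Iff.rfl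
    · intro h u hu hl
      obtain ⟨g, hg, hgu⟩ := h u hu hl
      exact ⟨g, ⟨hg, hl ▸ hgu.length_le⟩, hgu⟩
    · intro h u hu hl
      obtain ⟨g, hg, hgu⟩ := h u hu hl
      exact ⟨g, hg.1, hgu⟩
  rw [h3]
  exact h1

/-- regular languages on words with good blocks -/
theorem regular_free (n : ℕ) : ∃ N : ℕ, ∀ (α : Type) [Finite α]
    (P : Set (List α) → Prop), Cls P → ∀ (A : DFA α (Fin n))
    (S T : Set (List α)) (m K h : ℕ), Bg S T m K h → ∀ C : ℕ,
      P {w : List α | w ∈ A.accepts ∧ Dom {g | GoodBlock S T m K h N g} C w} := by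
  obtain ⟨N, hN⟩ := cls_free (Fin (Fintype.card (Fin n)) → ZMod 2)
  refine ⟨N, fun α _ P hP A S T m K h hB C => ?_⟩
  exact dfa_transfer (Q := {w | Dom {g | GoodBlock S T m K h N g} C w}) (P := P) A
    fun M x F => hN α P hP M S T m K h hB C x F

end Vale.Agent.P329.H730
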