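import Vale.Agent.P329.H730.Core
import Vale.Agent.P329.Clock.Run

set_option linter.all false

/-!
Marks inside a block, and the number of a block.
-/

namespace Vale.Agent.P329.H730

open Vale.Agent.P329 Vale.Agent.P329.Slow Vale.Agent.P329.Mark Vale.Agent.P329.Clock

section seg

variable {α : Type}

/-- the part of `w` between the positions `q` and `e` -/
def sg (q e : ℕ) (w : List α) : List α := (w.take e).drop q

theorem sg_length {q e : ℕ} {w : List α} (h : e ≤ w.length) : (sg q e w).length = e - q := by
  unfold sg
  rw [List.length_drop, List.length_take, min_eq_left h]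

theorem sg_congr {q e l : ℕ} {w w' : List α} (h : w.take l = w'.take l) (he : e ≤ l) :
    sg q e w = sg q e w' := by
  unfold sg
  have h1 : w.take e = (w.take l).take e := by rw [List.take_take, min_eq_left he]
  have h2 : w'.take e = (w'.take l).take e := by rw [List.take_take, min_eq_left he]
  rw [h1, h2, h]

theorem sg_shift (u w : List α) (q e : ℕ) :
    sg (u.length + q) (u.length + e) (u ++ w) = sg q e w := by
  unfold sg
  rw [List.take_append, List.take_of_length_le (by omega), Nat.add_sub_cancel_left,
    List.drop_append, List.drop_eq_nil_of_le (by omega), List.nil_append, Nat.add_sub_cancel_left]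

theorem sg_zero (e : ℕ) (w : List α) : sg 0 e w = w.take e := by
  unfold sg
  rw [List.drop_zero]

theorem sg_append {q e f : ℕ} {w : List α} (h1 : q ≤ e) (h2 : e ≤ f) (h3 : e ≤ w.length) :
    sg q e w ++ sg e f w = sg q f w := by
  unfold sg
  have h4 : w.take e = (w.take f).take e := by rw [List.take_take, min_eq_left h2]
  conv_rhs => rw [← List.take_append_drop e (w.take f), ← h4]
  rw [List.drop_append_of_le_length (by rw [List.length_take]; omega)]

end seg

section marks

variable {α : Type} (U : Set (List α)) (m K : ℕ)

/-- a window of `U` which does not follow another one at distance less than `K` -/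
def Ac (w : List α) (i : ℕ) : Prop :=
  win m i w ∈ U ∧ ∀ i', i' < i → i < i' + K → win m i' w ∉ U

open Classical in
/-- the positions `a ≤ i < a + n` of such windows -/
noncomputable def ps (w : List α) (a n : ℕ) : List ℕ :=
  (List.range' a n).filter (fun i => decide (Ac U m K w i))

variable {U m K}

theorem ps_add (w : List α) (a n n' : ℕ) :
    ps U m K w a (n + n') = ps U m K w a n ++ ps U m K w (a + n) n' := by
  unfold ps
  rw [← List.filter_append, List.range'_append_1]

theorem Ac_congr {w w' : List α} {i : ℕ} (h : ∀ j ≤ i, win m j w = win m j w') :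
    Ac U m K w i ↔ Ac U m K w' i := by
  unfold Ac
  rw [h i le_rfl]
  refine and_congr Iff.rfl (forall_congr' fun i' => ?_)
  constructor
  · intro h1 h2 h3
    rw [← h i' h2.le]
    exact h1 h2 h3
  · intro h1 h2 h3
    rw [h i' h2.le]
    exact h1 h2 h3

open Classical in
theorem ps_congr {w w' : List α} {a n : ℕ} (h : ∀ i < a + n, win m i w = win m i w') :
    ps U m K w a n = ps U m K w' a n := by
  unfold ps
  refine List.filter_congr fun i hi => ?_
  rw [List.mem_range'_1] at hi
  rw [decide_eq_decide]
  exact Ac_congr fun j hj => h j (by omega)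

open Classical in
theorem mem_ps {w : List α} {a n i : ℕ} (h : i ∈ ps U m K w a n) :
    (a ≤ i ∧ i < a + n) ∧ Ac U m K w i := by
  unfold ps at h
  rw [List.mem_filter, List.mem_range'_1, decide_eq_true_eq] at h
  exact h

theorem ps_nil {w : List α} {a n : ℕ} (h : ∀ i, a ≤ i → i < a + n → ¬ Ac U m K w i) :
    ps U m K w a n = [] := by
  rw [List.eq_nil_iff_forall_not_mem]
  intro i hi
  obtain ⟨⟨h1, h2⟩, h3⟩ := mem_ps hi
  exact h i h1 h2 h3

open Classical in
theorem ps_one {w : List α} {a : ℕ} (h : Ac U m K w a) : ps U m K w a 1 = [a] := by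
  unfold ps
  rw [List.range'_one, List.filter_cons, if_pos (by rw [decide_eq_true_eq]; exact h),
    List.filter_nil]

open Classical in
theorem ps_shift {u w : List α} {a n : ℕ}
    (h : ∀ i, a ≤ i → i < a + n → (Ac U m K (u ++ w) (u.length + i) ↔ Ac U m K w i)) :
    ps U m K (u ++ w) (u.length + a) n = (ps U m K w a n).map (u.length + ·) := by
  unfold ps
  rw [← List.map_add_range', List.filter_map]
  congr 1
  refine List.filter_congr fun i hi => ?_
  rw [List.mem_range'_1] at hi
  simp only [Function.comp]
  rw [decide_eq_decide]
  exact h i hi.1 hi.2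

end marks

section num

variable {α V : Type} [AddCommGroup V] (M : α → V →+ V) (c : (V → V) → ℤ) (b m R : ℕ)

/-- the number of a zone -/
def ez (z : List α) : ZMod R := ((c (act M z) : ℤ) : ZMod R) - ((z.length / m : ℕ) : ZMod R)

/-- the number of the zones which start at the given positions, the last one ends at `l` -/
def gs (w : List α) (l : ℕ) : List ℕ → ZMod R
  | [] => 0
  | q :: is => ez M c m R (sg q (is.headD l) w) + (b : ZMod R) * gs w l is

variable {M c b m R}

theorem headD_append (is js : List ℕ) (l : ℕ) : (is ++ js).headD l = is.headD (js.headD l) := by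
  cases is <;> rfl

theorem gs_cons (w : List α) (l q : ℕ) (is : List ℕ) : gs M c b m R w l (q :: is) =
    ez M c m R (sg q (is.headD l) w) + (b : ZMod R) * gs M c b m R w l is := rfl

theorem gs_nil (w : List α) (l : ℕ) : gs M c b m R w l [] = 0 := rfl

theorem gs_append (w : List α) (l : ℕ) (is js : List ℕ) :
    gs M c b m R w l (is ++ js) = gs M c b m R w (js.headD l) is +
      (b : ZMod R) ^ is.length * gs M c b m R w l js := by
  induction is with
  | nil => simp [gs_nil]
  | cons q is ih =>
    rw [List.cons_append, gs_cons, gs_cons, ih, headD_append, List.length_cons, pow_succ]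
    ring

theorem headD_mem_or (is : List ℕ) (l : ℕ) : is.headD l = l ∨ is.headD l ∈ is := by
  cases is with
  | nil => exact Or.inl rfl
  | cons q is => exact Or.inr (by simp)

theorem gs_congr {w w' : List α} {l : ℕ} (h : w.take l = w'.take l) (is : List ℕ)
    (his : ∀ i ∈ is, i ≤ l) : gs M c b m R w l is = gs M c b m R w' l is := by
  induction is with
  | nil => rfl
  | cons q is ih =>
    rw [gs_cons, gs_cons, ih fun i hi => his i (List.mem_cons_of_mem _ hi), sg_congr h]
    rcases headD_mem_or is l with h1 | h1
    · rw [h1]
    · exact his _ (List.mem_cons_of_mem _ h1)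

theorem headD_map (k : ℕ) (is : List ℕ) (l : ℕ) :
    (is.map (k + ·)).headD (k + l) = k + is.headD l := by
  cases is <;> rfl

theorem gs_shift (u w : List α) (l : ℕ) (is : List ℕ) :
    gs M c b m R (u ++ w) (u.length + l) (is.map (u.length + ·)) = gs M c b m R w l is := by
  induction is with
  | nil => rfl
  | cons q is ih =>
    rw [List.map_cons, gs_cons, gs_cons, ih, headD_map, sg_shift]

theorem act_comp (w w' : List α) : act M (w ++ w') = act M w' ∘ act M w := by
  funext y
  exact act_append M w w' y

end num

end Vale.Agent.P329.H730
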