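import Vale.Agent.P329.H730.Sys
import Vale.Agent.P329.H730.Defs

set_option linter.all false

/-!
The cut system: the instance.
-/

namespace Vale.Agent.P329.H730

open Vale.Agent.P329 Vale.Agent.P329.Slow Vale.Agent.P329.Mark Vale.Agent.P329.Clock

section sys

variable {α V : Type} [AddCommGroup V] (M : α → V →+ V) (T S : Set (List α))
  (c : (V → V) → ℤ) (n : V → (V → V) → ℤ) (b m K h R : ℕ) (f : ZMod R × (V → V) → V) (bnd : ℕ)

/-- a word which may end before the cut `r` -/
def PLu (r : V × V × ℕ) (u : List α) : Prop :=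
  r.2.2 ≤ u.length ∧ LA M T S c n b m K h R f r.1 (u.drop (u.length - r.2.2))

/-- a word which may start after the cut `r` -/
def PRu (r : V × V × ℕ) (z : List α) : Prop :=
  ∃ d ≤ bnd, d + h ≤ z.length ∧ RA M T S c n b m K h R r.2.1 (z.take (d + h)) d

/-- the value before the cut -/
def lamu (r : V × V × ℕ) (u : List α) : V := act M (u.drop (u.length - r.2.2)) r.1

/-- the value after the word `z` started behind the cut -/
noncomputable def Psiu (r : V × V × ℕ) (z : List α) : V :=
  vl M (Clock.run M T h (ju M S c b m K h R f) (r.2.1, win h (fst1 T h z) z)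
    (z.drop (fst1 T h z + h)))

/-- the value of a strand -/
noncomputable def Eu (w : List α) (x : V) : V :=
  vl M (Clock.run M T h (ju M S c b m K h R f) (x, []) w)

variable {M T S c n b m K h R f bnd}

theorem Eu_act (w : List α) (x : V) :
    Eu M T S c b m K h R f w x - Eu M T S c b m K h R f w 0 = act M w x := by
  unfold Eu
  rw [(run_linear w x 0 []).2]
  unfold vl
  rw [act_nil, act_nil, sub_zero]

theorem Cond.congr {k k' : ℕ} {L : ZMod R} {A : V → V} {y : V}
    (hc : Cond c n b f k L A y) (h1 : (b : ZMod R) ^ k = (b : ZMod R) ^ k') :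
    Cond c n b f k' L A y := by
  refine ⟨fun g B v => ?_, fun g g' B v η hη => ?_, fun g => ?_⟩
  · rw [← h1]; exact hc.s0 g B v
  · rw [pow_succ, ← h1, ← pow_succ]; exact hc.s1 g g' B v η hη
  · rw [← h1]; exact hc.s2 g

theorem exists_mod {D k : ℕ} (hk : k < D) (a : ℕ) : ∃ t < D, (a + t) % D = k := by
  induction a with
  | zero => exact ⟨k, hk, by rw [Nat.zero_add, Nat.mod_eq_of_lt hk]⟩
  | succ a ih =>
    obtain ⟨t, ht, h⟩ := ih
    rcases Nat.eq_zero_or_pos t with rfl | h0
    · refine ⟨D - 1, by omega, ?_⟩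
      have e : a + 1 + (D - 1) = a + 0 + D := by omega
      rw [e, Nat.add_mod_right, h]
    · refine ⟨t - 1, by omega, ?_⟩
      have e : a + 1 + (t - 1) = a + t := by omega
      rw [e, h]

/-- the position of the cut -/
theorem exists_pos {R m K N q e₀ : ℕ} [NeZero R] (hm : 0 < m) (hN2 : R + 3 ≤ N)
    (hqe : q + (N * m + 2 * K) ≤ e₀) (x : ZMod R) :
    ∃ j' i' o : ℕ, ((j' : ℕ) : ZMod R) = x ∧ 0 < i' ∧ o = q + m * i' ∧
      (e₀ - q) / m = i' + j' ∧ (e₀ - o) / m = j' ∧ o + K ≤ e₀ ∧ e₀ + 2 * m < o + (K + N * m) := by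
  have hR : 0 < R := Nat.pos_of_ne_zero (NeZero.ne R)
  obtain ⟨j', hj1, hj2, hj3⟩ : ∃ j' : ℕ, ((j' : ℕ) : ZMod R) = x ∧ K / m + 1 ≤ j' ∧
      j' < K / m + 1 + R := by
    refine ⟨(K / m + 1) + (x - ((K / m + 1 : ℕ) : ZMod R)).val, ?_, by omega, ?_⟩
    · rw [Nat.cast_add, ZMod.natCast_zmod_val]
      ring
    · have := ZMod.val_lt (x - ((K / m + 1 : ℕ) : ZMod R))
      omega
  have hK1 := Nat.div_add_mod K m
  have hK2 := Nat.mod_lt K hm
  have h1 : m * (K / m + 1) ≤ m * j' := Nat.mul_le_mul_left m hj2
  have h2 : m * (j' + 1) ≤ m * (K / m + 1 + R) := Nat.mul_le_mul_left m hj3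
  have h3 : (R + 3) * m ≤ N * m := Nat.mul_le_mul_right m hN2
  rw [Nat.mul_add, Nat.mul_one] at h1 h2
  rw [Nat.mul_add, Nat.mul_add, Nat.mul_one] at h2
  rw [Nat.add_mul, Nat.mul_comm R m] at h3
  have h4 : j' + 1 ≤ (e₀ - q) / m := by
    rw [Nat.le_div_iff_mul_le hm, Nat.mul_comm, Nat.mul_add, Nat.mul_one]
    omega
  obtain ⟨i', hi'⟩ : ∃ i', (e₀ - q) / m = i' + j' := ⟨(e₀ - q) / m - j', by omega⟩
  have hdm := Nat.div_add_mod (e₀ - q) m
  have hml := Nat.mod_lt (e₀ - q) hm
  rw [hi', Nat.mul_add] at hdm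
  refine ⟨j', i', q + m * i', hj1, by omega, rfl, hi', ?_, by omega, by omega⟩
  have e1 : e₀ - (q + m * i') = m * j' + (e₀ - q) % m := by omega
  rw [e1, Nat.mul_add_div hm, Nat.div_eq_of_lt hml, add_zero]

/-- the cut in a good block -/
theorem cut_good (hB : Bg S T m K h) [NeZero R] {D N : ℕ}
    (hG : ∀ s x y, ∃ k < D, Good c n b k s x y f)
    (hpow : ∀ k : ℕ, (b : ZMod R) ^ k = (b : ZMod R) ^ (k % D))
    (hN1 : D + 2 ≤ N) (hN2 : R + 3 ≤ N) {g : List α} (hg : GoodBlock S T m K h N g)
    (hgb : g.length ≤ bnd) (y : V) :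
    ∃ (v : V) (o : ℕ), o ≤ g.length ∧ LA M T S c n b m K h R f y (g.take o) ∧
      PRu M T S c n b m K h R bnd (y, v, o) (g.drop o) := by
  have hm := hB.m0
  have hmK := hB.mK
  have hmh := hB.mh
  obtain ⟨l, p, hgl, hbig, hpN, hmark, hgap⟩ := hg
  have hR : 0 < R := Nat.pos_of_ne_zero (NeZero.ne R)
  have hNm : m ≤ N * m := Nat.le_mul_of_pos_left m (by omega)
  have hmono : ∀ i j, i ≤ j → j ≤ N → p i ≤ p j := by
    intro i j hij
    induction j with
    | zero =>
      intro _
      have : i = 0 := by omega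
      rw [this]
    | succ j ih =>
      intro hj
      rcases Nat.lt_or_ge j i with h1 | h1
      · have : i = j + 1 := by omega
        rw [this]
      · have := ih h1 (by omega)
        have := (hgap j (by omega)).1
        omega
  have hquiet : ∀ i < N, ∀ j, j < p (i + 1) → p (i + 1) < j + (N * m + 2 * K) →
      win m j g ∉ S := by
    intro i hi j h1 h2 h3
    have h4 := (hgap i hi).1
    have := ((hgap i hi).2 j (by omega) h1 h3).1
    omega
  have hAc : ∀ i, 0 < i → i ≤ N → Ac S m K g (p i) := by
    intro i hi0 hi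
    refine ⟨hmark i hi, ?_⟩
    intro i' h1 h2
    obtain ⟨j, rfl⟩ : ∃ j, i = j + 1 := ⟨i - 1, by omega⟩
    exact hquiet j (by omega) i' h1 (by omega)
  have hnAc : ∀ i < N, ∀ j, p i < j → j < p (i + 1) → ¬ Ac S m K g j := by
    rintro i hi j h1 h2 ⟨h3, h4⟩
    obtain ⟨j', h5, h6, h7, h8⟩ := ((hgap i hi).2 j h1 h2 h3).2
    exact h4 j' h6 h7 h8
  have hpos : ∀ i, 0 < i → i ≤ N → 2 * K < p i := by
    intro i hi0 hi
    obtain ⟨j, rfl⟩ : ∃ j, i = j + 1 := ⟨i - 1, by omega⟩
    have := (hgap j (by omega)).1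
    omega
  have hkx : ∀ i, 0 < i → i < N → kx S m K g (p (i + 1)) = kx S m K g (p i) + 1 := by
    intro i hi0 hi
    unfold kx
    have h1 := (hgap i hi).1
    have h2 := hpos i hi0 hi.le
    have e1 : p (i + 1) - 1 = (p i - 1) + (1 + (p (i + 1) - 1 - p i)) := by omega
    have e2 : 1 + (p i - 1) = p i := by omega
    rw [e1, ps_add, e2, ps_add, ps_one (hAc i hi0 hi.le), ps_nil (a := p i + 1)]
    · simp
    · rintro j h3 h4 h5
      exact hnAc i hi j (by omega) (by omega) h5
  have hkx2 : ∀ t, t + 1 ≤ N → kx S m K g (p (1 + t)) = kx S m K g (p 1) + t := by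
    intro t
    induction t with
    | zero => intro _; rfl
    | succ t ih =>
      intro ht
      have h1 := hkx (1 + t) (by omega) (by omega)
      rw [← add_assoc, h1, ih (by omega)]
      ring
  -- the need
  obtain ⟨k, hkD, hk⟩ := hG (flow M S c b m K R g l) (act M (g.take l)) y
  obtain ⟨t, htD, ht⟩ := exists_mod hkD (kx S m K g (p 1))
  have hkt := hkx2 t (by omega)
  have hA1 := hAc (1 + t) (by omega) (by omega)
  have hA2 := hAc (1 + t + 1) (by omega) (by omega)
  have hg1 := (hgap (1 + t) (by omega)).1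
  have hq1 := hquiet (1 + t) (by omega)
  have hq2 := hnAc (1 + t) (by omega)
  have hp1 := hpos (1 + t) (by omega) (by omega)
  have hel : p (1 + t + 1) + m ≤ l := by
    have h1 := hmono (1 + t + 1) (N - 1) (by omega) (by omega)
    have h2 := (hgap (N - 1) (by omega)).1
    have h3 : N - 1 + 1 = N := by omega
    rw [h3] at h2
    omega
  generalize p (1 + t) = q at *
  generalize p (1 + t + 1) = e₀ at *
  have hjs : ps S m K g e₀ (l - m - e₀ + 1) = e₀ :: ps S m K g (e₀ + 1) (l - m - e₀) := by
    have e1 : l - m - e₀ + 1 = 1 + (l - m - e₀) := by omega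
    rw [e1, ps_add, ps_one hA2, List.singleton_append]
  have hflow := flow_split (M := M) (c := c) (b := b) (R := R) (X := g) (W := []) (q := q) (l := l)
    (js := ps S m K g e₀ (l - m - e₀ + 1)) (S := S) (m := m) (K := K) (by omega) (by omega) (by
      rw [List.append_nil]
      have e1 : l - m = (q - 1) + (1 + ((e₀ - 1 - q) + (l - m - e₀ + 1))) := by omega
      have e2 : 1 + (q - 1) = q := by omega
      have e3 : q + 1 + (e₀ - 1 - q) = e₀ := by omega
      rw [e1, ps_add, e2, ps_add, ps_one hA1, ps_add, e3, ps_nil (a := q + 1),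
        List.nil_append, List.singleton_append, ← e1]
      rintro j h3 h4 h5
      exact hq2 j (by omega) (by omega) h5)
  rw [List.append_nil, gs_cons g l q, hjs] at hflow
  change _ = _ + _ * (ez M c m R (sg q e₀ g) + _) at hflow
  rw [← hjs] at hflow
  have hx : act M (sg e₀ l g) ∘ act M (sg q e₀ g) ∘ act M (g.take q) = act M (g.take l) := by
    rw [← sg_zero l, ← sg_append (q := 0) (e := e₀) (f := l) (by omega) (by omega) (by omega),
      ← sg_append (q := 0) (e := q) (f := e₀) (by omega) (by omega) (by omega), sg_zero,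
      act_comp, act_comp]
  have hC := hk.cond hx
  generalize act M (g.take l) y + f (flow M S c b m K R g l, act M (g.take l)) = v at hC
  -- the position of the cut
  obtain ⟨j', i', o, hj1, hi1, ho, hi', hoe, hoK, hoN⟩ := exists_pos (K := K) (N := N) hm hN2 hg1
    ((b : ZMod R) * gs M c b m R g l (ps S m K g e₀ (l - m - e₀ + 1)) -
        ((n v (act M (sg e₀ l g)) : ℤ) : ZMod R))
  have hqt : ∀ j, j < e₀ → o ≤ j + (K + 2 * m) → win m j g ∉ S := fun j h1 h2 => hq1 j h1 (by omega)
  have hi4 : m ≤ m * i' := Nat.le_mul_of_pos_right m hi1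
  have hXl : (g.take o).length = o := by rw [List.length_take]; omega
  have hXq : (g.take o).take q = g.take q := by
    rw [List.take_take, min_eq_left (by omega)]
  have hwin : ∀ k j, j + k ≤ o → win k j (g.take o) = win k j g := fun k j hj => win_take hj
  have hps : ps S m K (g.take o) 1 (q - 1) = ps S m K g 1 (q - 1) :=
    ps_congr fun i hi => hwin m i (by omega)
  have hT0 : win h 0 g ∈ T := (hbig 0 (Nat.zero_le _)).2 (Or.inl rfl)
  have hho : h ≤ o := by
    by_contra hlt
    obtain ⟨j, h1, h2, h3⟩ := hB.dense' (by omega) hT0 (i := o - (K + m)) (by omega) (by omega)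
    exact hqt j (by omega) (by omega) h3
  have hnobig : ∀ i, 0 < i → i + h ≤ (g.take o).length → win h i (g.take o) ∉ T := by
    intro i h1 h2 h3
    rw [hXl] at h2
    rw [hwin h i h2] at h3
    rcases (hbig i (by omega)).1 h3 with h4 | h4 <;> omega
  refine ⟨v, o, by omega, ?_, ?_⟩
  · -- left
    refine ⟨by rw [hXl]; exact hho, ?_, hnobig, ?_, q, i', by omega, hi1, by rw [hXl]; exact ho,
      ?_, ?_, ?_⟩
    · rw [List.take_take, min_eq_left hho, ← win_zero]
      exact hT0
    · intro i h1 h2
      rw [hXl] at h1 h2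
      rw [hwin m i h2]
      exact hqt i (by omega) h1
    · exact (Ac_congr fun j hj => hwin m j (by omega)).2 hA1
    · intro i h1 h2 h3
      rw [hXl] at h2
      rw [Ac_congr fun j hj => hwin m j (by omega)] at h3
      exact hq2 i h1 (by omega) h3
    · have hkk : kx S m K (g.take o) q = kx S m K g q := by
        unfold kx
        rw [hps]
      have hgs : gs M c b m R (g.take o) q (0 :: ps S m K g 1 (q - 1)) =
          gs M c b m R g q (0 :: ps S m K g 1 (q - 1)) := by
        refine gs_congr hXq _ fun i hi => ?_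
        rcases List.mem_cons.1 hi with rfl | hi
        · exact Nat.zero_le _
        · have := (mem_ps hi).1
          omega
      rw [hkk, hps, hgs, hXq]
      have hb : (b : ZMod R) ^ k = (b : ZMod R) ^ (kx S m K g q) := by
        rw [hpow (kx S m K g q), hkt, ht]
      have hC' := hC.congr hb
      rw [hb] at hC'
      have e1 : flow M S c b m K R g l - (b : ZMod R) ^ kx S m K g q *
          ((c (act M (sg q e₀ g)) + n v (act M (sg e₀ l g)) : ℤ) : ZMod R) =
          gs M c b m R g q (0 :: ps S m K g 1 (q - 1)) -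
            (b : ZMod R) ^ kx S m K g q * ((i' : ℕ) : ZMod R) := by
        rw [hflow]
        unfold ez
        rw [sg_length (by omega), hi', Nat.cast_add, hj1]
        push_cast
        ring
      rw [e1] at hC'
      exact hC'
  · -- right
    refine ⟨l - o, by omega, by rw [List.length_drop]; omega, ?_⟩
    have hzl : (g.drop o).length = l - o + h := by rw [List.length_drop]; omega
    have hzt : (g.drop o).take (l - o + h) = g.drop o :=
      List.take_of_length_le (by omega)
    show RA M T S c n b m K h R v _ _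
    rw [hzt]
    have hquietz : ∀ i < K, win m i (g.drop o) ∉ S := by
      intro i hi h3
      rw [win_drop] at h3
      exact hqt (o + i) (by omega) (by omega) h3
    have hjz : (ps S m K (g.drop o) 0 (l - o - m + 1)).map (o + ·) =
        ps S m K g e₀ (l - m - e₀ + 1) := by
      have h1 := ps_right (u := g.take o) hquietz (l - o - m + 1)
      rw [List.take_append_drop, hXl] at h1
      rw [← h1]
      have e1 : l - o - m + 1 = (e₀ - o) + (l - m - e₀ + 1) := by omega
      have e2 : o + (e₀ - o) = e₀ := by omega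
      rw [e1, ps_add, e2, ps_nil, List.nil_append]
      rintro j h3 h4 ⟨h5, -⟩
      exact hqt j (by omega) (by omega) h5
    have hhd : (ps S m K (g.drop o) 0 (l - o - m + 1)).headD (l - o) = e₀ - o := by
      have h1 := headD_map o (ps S m K (g.drop o) 0 (l - o - m + 1)) (l - o)
      rw [hjz, hjs] at h1
      change e₀ = _ at h1
      omega
    have hgz : gs M c b m R (g.drop o) (l - o) (ps S m K (g.drop o) 0 (l - o - m + 1)) =
        gs M c b m R g l (ps S m K g e₀ (l - m - e₀ + 1)) := by
      have h1 := gs_shift (M := M) (c := c) (b := b) (m := m) (R := R) (g.take o) (g.drop o)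
        (l - o) (ps S m K (g.drop o) 0 (l - o - m + 1))
      have e2 : o + (l - o) = l := by omega
      rw [List.take_append_drop, hXl, hjz, e2] at h1
      exact h1.symm
    have hsg : sg (e₀ - o) (l - o) (g.drop o) = sg e₀ l g := by
      have h1 := sg_shift (g.take o) (g.drop o) (e₀ - o) (l - o)
      have e2 : o + (l - o) = l := by omega
      have e3 : o + (e₀ - o) = e₀ := by omega
      rw [List.take_append_drop, hXl, e2, e3] at h1
      exact h1.symm
    refine ⟨hzl, ?_, ?_, hquietz, ?_⟩
    · rw [win_drop]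
      have e2 : o + (l - o) = l := by omega
      rw [e2]
      exact (hbig l le_rfl).2 (Or.inr rfl)
    · intro i hi h3
      rw [win_drop] at h3
      rcases (hbig (o + i) (by omega)).1 h3 with h4 | h4 <;> omega
    · rw [hhd, hgz, hsg, hoe, hj1]
      ring

theorem sysU (hB : Bg S T m K h) [NeZero R] {D N : ℕ}
    (hS3 : ∀ g B v (η : ℤ), (η = 0 ∨ η = 1) →
      f (((c g - η + n v B : ℤ) : ZMod R), B ∘ g) = v)
    (hG : ∀ s x y, ∃ k < D, Good c n b k s x y f)
    (hpow : ∀ k : ℕ, (b : ZMod R) ^ k = (b : ZMod R) ^ (k % D))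
    (hN1 : D + 2 ≤ N) (hN2 : R + 3 ≤ N) :
    CS (bnd + h) (Eu M T S c b m K h R f) (PLu M T S c n b m K h R f)
      (PRu M T S c n b m K h R bnd)
      (lamu M) (Psiu M T S c b m K h R f) {g | GoodBlock S T m K h N g ∧ g.length ≤ bnd} where
  pos := by have := hB.m0; have := hB.mh; omega
  plApp r u k hp := by
    obtain ⟨h1, h2⟩ := hp
    have he : (u ++ k).drop ((u ++ k).length - r.2.2) = k.drop (k.length - r.2.2) := by
      rw [List.length_append, List.drop_append, List.drop_eq_nil_of_le (by omega),
        List.nil_append]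
      congr 1
      omega
    unfold PLu
    rw [he]
    exact ⟨by rw [List.length_append]; omega, h2⟩
  lamApp r u k hp := by
    obtain ⟨h1, h2⟩ := hp
    have he : (u ++ k).drop ((u ++ k).length - r.2.2) = k.drop (k.length - r.2.2) := by
      rw [List.length_append, List.drop_append, List.drop_eq_nil_of_le (by omega),
        List.nil_append]
      congr 1
      omega
    unfold lamu
    rw [he]
  prApp r k z hp := by
    obtain ⟨d, h1, h2, h3⟩ := hp
    refine ⟨d, h1, by rw [List.length_append]; omega, ?_⟩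
    rw [List.take_append_of_le_length h2]
    exact h3
  prLoc r k z hp hk := by
    obtain ⟨d, h1, h2, h3⟩ := hp
    refine ⟨d, h1, by omega, ?_⟩
    rw [List.take_append_of_le_length (by omega)] at h3
    exact h3
  junc r r' u z x h1 h2 h3 := by
    obtain ⟨v, hv⟩ := LA_block hB h1.1 h1.2 x
    obtain ⟨d, hd1, hd2, hd⟩ := h2
    have h4 := junc_state hB hS3 h1.2 hd
    have hw : ∀ i, i ≤ d → win h i (z.take (d + h)) = win h i z := fun i hi => win_take (by omega)
    have hfst : fst1 T h z = d := by
      refine fst1_eq hd2 ?_ fun i hi => ?_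
      · rw [← hw d le_rfl]
        exact hd.big
      · rw [← hw i hi.le]
        exact hd.nobig i hi
    unfold Eu at h3 ⊢
    rw [hv] at h3
    rw [Clock.run_append, hv]
    have h5 := (run_linear (M := M) (U := T) (m := h) (τ := ju M S c b m K h R f) z v r.1
      (u.drop (u.length - r.2.2))).2
    have h6 : vl M (v, u.drop (u.length - r.2.2)) = vl M (r.1, u.drop (u.length - r.2.2)) := h3
    rw [h6, sub_self, act_zero] at h5
    rw [sub_eq_zero.1 h5]
    have hzz : z = z.take (d + h) ++ z.drop (d + h) := (List.take_append_drop _ _).symm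
    unfold Psiu
    rw [hfst]
    conv_lhs => rw [hzz, Clock.run_append, h4, hw d le_rfl]
  cutIn g hg u x := by
    have hm := hB.m0
    have hmh := hB.mh
    obtain ⟨hg, hgb⟩ := hg
    have hg' := hg
    obtain ⟨l, p, hgl, hbig, -⟩ := hg'
    have hWl : (g.take h).length = h := by rw [List.length_take]; omega
    have hWU : g.take h ∈ T := (hbig 0 (Nat.zero_le _)).2 (Or.inl rfl)
    obtain ⟨y, hv⟩ := Clock.run_win (M := M) (τ := ju M S c b m K h R f) x u (g.take h)
      (by omega) hWl hWU
    obtain ⟨v, o, ho, hL, hR⟩ := cut_good (M := M) hB hG hpow hN1 hN2 hg hgb y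
    have hcl : (g.take o).length = o := by rw [List.length_take]; omega
    have hcd : (g.take o).drop ((g.take o).length - o) = g.take o := by
      rw [hcl, Nat.sub_self, List.drop_zero]
    refine ⟨(y, v, o), g.take o, g.drop o, List.take_append_drop _ _, ?_, hR, ?_⟩
    · refine ⟨by rw [hcl], ?_⟩
      show LA M T S c n b m K h R f y ((g.take o).drop ((g.take o).length - o))
      rw [hcd]
      exact hL
    · unfold Eu lamu
      show _ = act M ((g.take o).drop ((g.take o).length - o)) y
      rw [hcd]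
      have hho : h ≤ o := by
        have := hL.hlen
        omega
      have he : g.take h = (g.take o).take h := by
        rw [List.take_take, min_eq_left hho]
      have h7 := Clock.run_block hv hWl (z := (g.take o).drop h) (fun i hi h8 => by
        rw [he, List.take_append_drop] at h8 ⊢
        exact hL.nobig i hi h8)
      rw [he, List.take_append_drop] at h7
      rw [h7]
      rfl

end sys

end Vale.Agent.P329.H730
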