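import Vale.Agent.P329.H730.Gs

set_option linter.all false

/-!
Junctions.
-/

namespace Vale.Agent.P329.H730

open Vale.Agent.P329 Vale.Agent.P329.Slow Vale.Agent.P329.Mark Vale.Agent.P329.Clock

/-- Marks are windows of length `m` in `S`, big marks are windows of length `h` in `T`: each of
them starts with a mark, and every factor of length `K` of it contains a mark. -/
structure Bg {α : Type} (S T : Set (List α)) (m K h : ℕ) : Prop where
  m0 : 0 < m
  mK : m ≤ K
  mh : m ≤ h
  start : ∀ t ∈ T, t.length = h → win m 0 t ∈ S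
  dense : ∀ t ∈ T, t.length = h → ∀ i, i + K ≤ h → ∃ j, i ≤ j ∧ j + m ≤ i + K ∧ win m j t ∈ S

section sys

variable {α V : Type} [AddCommGroup V] (M : α → V →+ V) (T S : Set (List α))
  (c : (V → V) → ℤ) (n : V → (V → V) → ℤ) (b m K h R : ℕ) (f : ZMod R × (V → V) → V)

/-- the number of a block of length `l + h` -/
noncomputable def flow (w : List α) (l : ℕ) : ZMod R :=
  gs M c b m R w l (0 :: ps S m K w 1 (l - m))

open Classical in
/-- the jump at the end of a block -/
noncomputable def ju (B : List α) : V :=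
  if B.length < h + m then 0 else
    f (flow M S c b m K R B (B.length - h), act M (B.take (B.length - h)))

/-- the index of the zone which starts at `q` -/
noncomputable def kx (X : List α) (q : ℕ) : ℕ := (ps S m K X 1 (q - 1)).length + 1

/-- a block which may be cut at its end -/
structure LA (y : V) (X : List α) : Prop where
  hlen : h ≤ X.length
  big : X.take h ∈ T
  nobig : ∀ i, 0 < i → i + h ≤ X.length → win h i X ∉ T
  tail : ∀ i, X.length ≤ i + (K + 2 * m) → i + m ≤ X.length → win m i X ∉ S
  zone : ∃ q i', 0 < q ∧ 0 < i' ∧ X.length = q + m * i' ∧ Ac S m K X q ∧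
    (∀ i, q < i → i + m ≤ X.length → ¬ Ac S m K X i) ∧
    Cond c n b f (kx S m K X q) (gs M c b m R X q (0 :: ps S m K X 1 (q - 1)) -
      (b : ZMod R) ^ (kx S m K X q) * ((i' : ℕ) : ZMod R)) (act M (X.take q)) (act M (X.take q) y)

/-- the word until the next big mark after a cut -/
structure RA (v : V) (Z : List α) (d : ℕ) : Prop where
  len : Z.length = d + h
  big : win h d Z ∈ T
  nobig : ∀ i < d, win h i Z ∉ T
  quiet : ∀ i < K, win m i Z ∉ S
  num : -(((ps S m K Z 0 (d - m + 1)).headD d / m : ℕ) : ZMod R) +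
    (b : ZMod R) * gs M c b m R Z d (ps S m K Z 0 (d - m + 1)) =
      ((n v (act M (sg ((ps S m K Z 0 (d - m + 1)).headD d) d Z)) : ℤ) : ZMod R)

variable {M T S c n b m K h R f}

theorem Bg.win0 (hB : Bg S T m K h) {w : List α} {s : ℕ} (hs : s + h ≤ w.length)
    (hw : win h s w ∈ T) : win m s w ∈ S := by
  have h1 := hB.start _ hw (by unfold win; rw [List.length_take, List.length_drop]; omega)
  have h2 : win m 0 (win h s w) = win m s w := by
    unfold win
    rw [List.drop_zero, List.take_take, min_eq_left hB.mh]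
  rw [h2] at h1
  exact h1

theorem Bg.dense' (hB : Bg S T m K h) {w : List α} {s : ℕ} (hs : s + h ≤ w.length)
    (hw : win h s w ∈ T) {i : ℕ} (hi : s ≤ i) (hi2 : i + K ≤ s + h) :
    ∃ j, i ≤ j ∧ j + m ≤ i + K ∧ win m j w ∈ S := by
  obtain ⟨j, h1, h2, h3⟩ := hB.dense _ hw
    (by unfold win; rw [List.length_take, List.length_drop]; omega) (i - s) (by omega)
  refine ⟨s + j, by omega, by omega, ?_⟩
  have h4 : win m j (win h s w) = win m (s + j) w := by
    unfold win
    rw [List.drop_take, List.take_take, min_eq_left (by omega), List.drop_drop]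
  rw [h4] at h3
  exact h3

theorem ps_left {X W : List α} {q t : ℕ} (hq0 : 0 < q) (hA : Ac S m K X q) (hqt : q ≤ t)
    (ht : t + m ≤ X.length) (hq : ∀ i, q < i → i + m ≤ X.length → ¬ Ac S m K X i) :
    ps S m K (X ++ W) 1 t = ps S m K X 1 (q - 1) ++ [q] := by
  rw [ps_congr (w' := X) (fun i hi => win_append (by omega))]
  have e : t = (q - 1) + (1 + (t - q)) := by omega
  conv_lhs => rw [e, ps_add, ps_add]
  have e1 : 1 + (q - 1) = q := by omega
  rw [e1, ps_one hA, ps_nil (a := q + 1), List.append_nil]
  intro i h1 h2 h3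
  exact hq i (by omega) (by omega) h3

theorem flow_split {X W : List α} {q l : ℕ} {js : List ℕ} (hqX : q ≤ X.length) (hq0 : 0 < q)
    (h : ps S m K (X ++ W) 1 (l - m) = ps S m K X 1 (q - 1) ++ (q :: js)) :
    flow M S c b m K R (X ++ W) l = gs M c b m R X q (0 :: ps S m K X 1 (q - 1)) +
      (b : ZMod R) ^ (kx S m K X q) * gs M c b m R (X ++ W) l (q :: js) := by
  unfold flow
  rw [h, ← List.cons_append, gs_append]
  congr 1
  show gs M c b m R (X ++ W) q _ = _
  refine gs_congr (List.take_append_of_le_length hqX) _ fun i hi => ?_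
  rcases List.mem_cons.1 hi with rfl | hi
  · exact Nat.zero_le _
  · have := (mem_ps hi).1
    omega

theorem RA.le (hB : Bg S T m K h) {v : V} {Z : List α} {d : ℕ}
    (hR : RA M T S c n b m K h R v Z d) : K ≤ d := by
  by_contra hlt
  exact hR.quiet d (by omega) (hB.win0 (by rw [hR.len]) hR.big)

theorem ps_right {u Z : List α} (hq : ∀ i < K, win m i Z ∉ S) (k : ℕ) :
    ps S m K (u ++ Z) u.length k = (ps S m K Z 0 k).map (u.length + ·) := by
  have h := ps_shift (U := S) (m := m) (K := K) (u := u) (w := Z) (a := 0) (n := k)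
    (fun i _ _ => ?_)
  · rw [add_zero] at h
    exact h
  · unfold Ac
    rw [win_shift]
    by_cases hi : i < K
    · exact ⟨fun h => absurd h.1 (hq i hi), fun h => absurd h.1 (hq i hi)⟩
    · refine and_congr Iff.rfl ⟨fun h i' h1 h2 => ?_, fun h i' h1 h2 => ?_⟩
      · have h3 := h (u.length + i') (by omega) (by omega)
        rw [win_shift] at h3
        exact h3
      · obtain ⟨i'', rfl⟩ : ∃ i'', i' = u.length + i'' := ⟨i' - u.length, by omega⟩
        rw [win_shift]
        exact h i'' (by omega) (by omega)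

/-- the number of the zones after a cut, with the zone which contains the cut -/
theorem tail_num {v : V} {Z : List α} {d : ℕ} (hR : RA M T S c n b m K h R v Z d)
    (u : List α) {q : ℕ} (hq : q ≤ u.length) (k : ℤ)
    (hed : (ps S m K Z 0 (d - m + 1)).headD d ≤ d)
    (hk : (((u.length - q + (ps S m K Z 0 (d - m + 1)).headD d) / m : ℕ) : ℤ) =
      k + (((ps S m K Z 0 (d - m + 1)).headD d / m : ℕ) : ℤ)) :
    gs M c b m R (u ++ Z) (u.length + d)
      (q :: (ps S m K Z 0 (d - m + 1)).map (u.length + ·)) =
      ((c (act M (sg q (u.length + (ps S m K Z 0 (d - m + 1)).headD d) (u ++ Z))) - k +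
        n v (act M (sg ((ps S m K Z 0 (d - m + 1)).headD d) d Z)) : ℤ) : ZMod R) := by
  have hlen := hR.len
  have hnum := hR.num
  rw [gs_cons, headD_map, gs_shift]
  generalize (ps S m K Z 0 (d - m + 1)).headD d = e at *
  unfold ez
  rw [sg_length (by rw [List.length_append]; omega)]
  have e1 : u.length + e - q = u.length - q + e := by omega
  rw [e1]
  generalize (u.length - q + e) / m = T at *
  generalize e / m = t at *
  have h2 : ((T : ℕ) : ZMod R) = ((k + (t : ℤ) : ℤ) : ZMod R) := by
    rw [← hk, Int.cast_natCast]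
  rw [h2]
  push_cast
  rw [← hnum]
  ring

theorem RA.hed {v : V} {Z : List α} {d : ℕ} (hR : RA M T S c n b m K h R v Z d) (hmd : m ≤ d) :
    (ps S m K Z 0 (d - m + 1)).headD d ≤ d := by
  rcases headD_mem_or (ps S m K Z 0 (d - m + 1)) d with h1 | h1
  · exact h1.le
  · have := (mem_ps h1).1
    omega

/-- the content of a block -/
theorem content {u Z : List α} {q e d : ℕ} (hq : q ≤ u.length) (he : e ≤ d)
    (hd : d ≤ Z.length) :
    act M ((u ++ Z).take (u.length + d)) = act M (sg e d Z) ∘
      act M (sg q (u.length + e) (u ++ Z)) ∘ act M (u.take q) := by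
  have h1 : (u ++ Z).take (u.length + d) = u.take q ++ sg q (u.length + e) (u ++ Z) ++
      sg e d Z := by
    rw [← sg_zero (u.length + d), ← sg_append (q := 0) (e := u.length + e) (by omega) (by omega)
      (by rw [List.length_append]; omega), sg_shift,
      ← sg_append (q := 0) (e := q) (f := u.length + e) (by omega) (by omega)
      (by rw [List.length_append]; omega), sg_zero, List.take_append_of_le_length hq]
  rw [h1, act_comp, act_comp]

theorem div_eta {a e m : ℕ} (ha : a < m) :
    ∃ η : ℤ, (η = 0 ∨ η = 1) ∧ (((a + e) / m : ℕ) : ℤ) = η + ((e / m : ℕ) : ℤ) := by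
  have hm : 0 < m := by omega
  have h1 : e / m ≤ (a + e) / m := Nat.div_le_div_right (by omega)
  have h2 : (a + e) / m ≤ e / m + 1 := by
    rw [← Nat.add_div_right e hm]
    exact Nat.div_le_div_right (by omega)
  refine ⟨(((a + e) / m : ℕ) : ℤ) - ((e / m : ℕ) : ℤ), ?_, by ring⟩
  omega

theorem div_pred {a i m r X q : ℕ} (hm : 0 < m) (hi : 0 < i) (hX : X = q + m * i)
    (h1 : X < a + m) (h2 : a < X) : (a - q) / m = i - 1 := by
  obtain ⟨j, rfl⟩ : ∃ j, i = j + 1 := ⟨i - 1, by omega⟩
  rw [Nat.mul_add, Nat.mul_one] at hX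
  have e3 : a - q = m * j + (a + m - X) := by omega
  rw [e3, Nat.mul_add_div hm, Nat.div_eq_of_lt (by omega), add_zero, Nat.add_sub_cancel]

/-- the last accepted mark is far from the cut -/
theorem LA.far (hB : Bg S T m K h) {X : List α}
    (htail : ∀ i, X.length ≤ i + (K + 2 * m) → i + m ≤ X.length → win m i X ∉ S)
    {q i' : ℕ} (hi' : 0 < i') (hXl : X.length = q + m * i') (hAc : Ac S m K X q) :
    q + (K + 2 * m) < X.length := by
  by_contra hlt
  have h1 : m ≤ m * i' := Nat.le_mul_of_pos_right m hi'
  exact htail q (by omega) (by omega) hAc.1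

/-- no mark across the cut, or one mark across the cut -/
theorem val_plain (hB : Bg S T m K h) {y v : V} {X Z : List α} {d : ℕ}
    (hL : LA M T S c n b m K h R f y X) (hR : RA M T S c n b m K h R v Z d) :
    act M ((X ++ Z).take (X.length + d)) y +
      f (flow M S c b m K R (X ++ Z) (X.length + d), act M ((X ++ Z).take (X.length + d))) = v := by
  classical
  have hm := hB.m0
  have hmK := hB.mK
  have hKd := hR.le hB
  have hed := hR.hed (by omega)
  have hZl := hR.len
  have htail := hL.tail
  obtain ⟨q, i', hq0, hi', hXl, hAc, hqu, hC⟩ := hL.zone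
  have hX3 := LA.far hB htail hi' hXl hAc
  -- positions
  have hp1 : ps S m K (X ++ Z) 1 (X.length + d - m) = ps S m K (X ++ Z) 1 (X.length - m) ++
      (ps S m K (X ++ Z) (X.length - m + 1) (m - 1) ++
        (ps S m K Z 0 (d - m + 1)).map (X.length + ·)) := by
    have e1 : X.length + d - m = (X.length - m) + ((m - 1) + (d - m + 1)) := by omega
    have e2 : 1 + (X.length - m) = X.length - m + 1 := by omega
    have e3 : X.length - m + 1 + (m - 1) = X.length := by omega
    rw [e1, ps_add, e2, ps_add, e3, ps_right hR.quiet]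
  rw [ps_left (t := X.length - m) hq0 hAc (by omega) (by omega) hqu] at hp1
  by_cases hst : ∃ s, X.length < s + m ∧ s < X.length ∧ win m s (X ++ Z) ∈ S
  · -- one mark
    have hst' := Nat.find_spec hst
    have hmin : ∀ s < Nat.find hst, ¬ (X.length < s + m ∧ s < X.length ∧ win m s (X ++ Z) ∈ S) :=
      fun s hs => Nat.find_min hst hs
    generalize Nat.find hst = s at hst' hmin
    obtain ⟨hs1, hs2, hs3⟩ := hst'
    have hAs : Ac S m K (X ++ Z) s := by
      refine ⟨hs3, fun i h1 h2 h3 => ?_⟩
      by_cases h4 : X.length < i + m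
      · exact hmin i h1 ⟨h4, by omega, h3⟩
      · rw [win_append (by omega)] at h3
        exact htail i (by omega) (by omega) h3
    have hmid : ps S m K (X ++ Z) (X.length - m + 1) (m - 1) = [s] := by
      have e1 : m - 1 = (s - (X.length - m + 1)) + (1 + (X.length - 1 - s)) := by omega
      have e2 : X.length - m + 1 + (s - (X.length - m + 1)) = s := by omega
      rw [e1, ps_add, e2, ps_add, ps_one hAs, ps_nil, ps_nil, List.append_nil, List.nil_append]
      · rintro i h1 h2 ⟨h3, h4⟩
        exact h4 s (by omega) (by omega) hs3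
      · rintro i h1 h2 ⟨h3, -⟩
        exact hmin i (by omega) ⟨by omega, by omega, h3⟩
    rw [hmid, List.append_assoc, List.singleton_append, List.singleton_append] at hp1
    have hflow := flow_split (M := M) (c := c) (b := b) (R := R) (by omega) hq0 hp1
    obtain ⟨η, hη, hη2⟩ := div_eta (a := X.length - s) (e := (ps S m K Z 0 (d - m + 1)).headD d)
      (m := m) (by omega)
    have htl := tail_num hR X (q := s) (by omega) η hed hη2
    rw [gs_cons (X ++ Z) (X.length + d) q, htl] at hflow
    have hcont := content (M := M) (u := X) (Z := Z) (q := s)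
      (e := (ps S m K Z 0 (d - m + 1)).headD d) (d := d) (by omega) hed (by omega)
    have hXs : X.take s = X.take q ++ sg q s X := by
      rw [← sg_zero s, ← sg_append (q := 0) (e := q) (f := s) (by omega) (by omega) (by omega),
        sg_zero]
    rw [hXs, act_comp] at hcont
    have hs1' := hC.s1 (act M (sg q s X))
      (act M (sg s (X.length + (ps S m K Z 0 (d - m + 1)).headD d) (X ++ Z)))
      (act M (sg ((ps S m K Z 0 (d - m + 1)).headD d) d Z)) v η hη
    rw [hflow, hcont]
    have hez : ez M c m R (sg q ((s :: (ps S m K Z 0 (d - m + 1)).map (X.length + ·)).headD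
        (X.length + d)) (X ++ Z)) = ((c (act M (sg q s X)) + 1 : ℤ) : ZMod R) -
          ((i' : ℕ) : ZMod R) := by
      show ez M c m R (sg q s (X ++ Z)) = _
      have e1 : sg q s (X ++ Z) = sg q s X :=
        sg_congr (l := s) (List.take_append_of_le_length (by omega)) le_rfl
      rw [e1]
      unfold ez
      rw [sg_length (by omega), div_pred (r := 0) hm hi' hXl hs1 hs2, Nat.cast_sub hi']
      push_cast
      ring
    rw [hez]
    have hsum : gs M c b m R X q (0 :: ps S m K X 1 (q - 1)) + (b : ZMod R) ^ kx S m K X q *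
        ((((c (act M (sg q s X)) + 1 : ℤ) : ZMod R) - ((i' : ℕ) : ZMod R)) +
          (b : ZMod R) * ((c (act M (sg s (X.length + (ps S m K Z 0 (d - m + 1)).headD d) (X ++ Z)))
            - η + n v (act M (sg ((ps S m K Z 0 (d - m + 1)).headD d) d Z)) : ℤ) : ZMod R)) =
        gs M c b m R X q (0 :: ps S m K X 1 (q - 1)) -
          (b : ZMod R) ^ (kx S m K X q) * ((i' : ℕ) : ZMod R) +
          (b : ZMod R) ^ (kx S m K X q) * ((c (act M (sg q s X)) + 1 : ℤ) : ZMod R) +
          (b : ZMod R) ^ (kx S m K X q + 1) *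
            ((c (act M (sg s (X.length + (ps S m K Z 0 (d - m + 1)).headD d) (X ++ Z)))
            - η + n v (act M (sg ((ps S m K Z 0 (d - m + 1)).headD d) d Z)) : ℤ) : ZMod R) := by
      rw [pow_succ]
      ring
    rw [hsum]
    exact hs1'
  · -- no mark
    push Not at hst
    have hmid : ps S m K (X ++ Z) (X.length - m + 1) (m - 1) = [] := by
      refine ps_nil ?_
      rintro i h1 h2 ⟨h3, -⟩
      exact hst i (by omega) (by omega) h3
    rw [hmid, List.nil_append, List.append_assoc, List.singleton_append] at hp1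
    have hflow := flow_split (M := M) (c := c) (b := b) (R := R) (by omega) hq0 hp1
    have hdiv : (((X.length - q + (ps S m K Z 0 (d - m + 1)).headD d) / m : ℕ) : ℤ) =
        (i' : ℤ) + (((ps S m K Z 0 (d - m + 1)).headD d / m : ℕ) : ℤ) := by
      rw [hXl, Nat.add_sub_cancel_left, Nat.mul_add_div hm]
      push_cast
      rfl
    have htl := tail_num hR X (q := q) (by omega) (i' : ℤ) hed hdiv
    rw [htl] at hflow
    have hcont := content (M := M) (u := X) (Z := Z) (q := q)
      (e := (ps S m K Z 0 (d - m + 1)).headD d) (d := d) (by omega) hed (by omega)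
    have hs0' := hC.s0 (act M (sg q (X.length + (ps S m K Z 0 (d - m + 1)).headD d) (X ++ Z)))
      (act M (sg ((ps S m K Z 0 (d - m + 1)).headD d) d Z)) v
    rw [hflow, hcont]
    have hsum : gs M c b m R X q (0 :: ps S m K X 1 (q - 1)) + (b : ZMod R) ^ kx S m K X q *
        ((c (act M (sg q (X.length + (ps S m K Z 0 (d - m + 1)).headD d) (X ++ Z))) - (i' : ℤ) +
            n v (act M (sg ((ps S m K Z 0 (d - m + 1)).headD d) d Z)) : ℤ) : ZMod R) =
        gs M c b m R X q (0 :: ps S m K X 1 (q - 1)) -
          (b : ZMod R) ^ (kx S m K X q) * ((i' : ℕ) : ZMod R) +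
          (b : ZMod R) ^ (kx S m K X q) *
            ((c (act M (sg q (X.length + (ps S m K Z 0 (d - m + 1)).headD d) (X ++ Z)))
            + n v (act M (sg ((ps S m K Z 0 (d - m + 1)).headD d) d Z)) : ℤ) : ZMod R) := by
      push_cast
      ring
    rw [hsum]
    exact hs0'

/-- a big mark which starts across the cut -/
theorem val_big (hB : Bg S T m K h) {y : V} {X W : List α} {l : ℕ}
    (hL : LA M T S c n b m K h R f y X) (hl1 : X.length < l + m) (hl2 : l < X.length) :
    act M ((X ++ W).take l) y +
      f (flow M S c b m K R (X ++ W) l, act M ((X ++ W).take l)) = 0 := by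
  have hm := hB.m0
  have hmK := hB.mK
  have htail := hL.tail
  obtain ⟨q, i', hq0, hi', hXl, hAc, hqu, hC⟩ := hL.zone
  have hX3 := LA.far hB htail hi' hXl hAc
  have hp1 : ps S m K (X ++ W) 1 (l - m) = ps S m K X 1 (q - 1) ++ [q] :=
    ps_left hq0 hAc (by omega) (by omega) hqu
  have hflow := flow_split (M := M) (c := c) (b := b) (R := R) (by omega) hq0 hp1
  rw [gs_cons (X ++ W) l q, gs_nil, mul_zero, add_zero] at hflow
  have hXl' : (X ++ W).take l = X.take q ++ sg q l X := by
    rw [List.take_append_of_le_length (by omega), ← sg_zero l,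
      ← sg_append (q := 0) (e := q) (f := l) (by omega) (by omega) (by omega), sg_zero]
  have hez : ez M c m R (sg q (([] : List ℕ).headD l) (X ++ W)) =
      ((c (act M (sg q l X)) + 1 : ℤ) : ZMod R) - ((i' : ℕ) : ZMod R) := by
    show ez M c m R (sg q l (X ++ W)) = _
    have e1 : sg q l (X ++ W) = sg q l X :=
      sg_congr (l := l) (List.take_append_of_le_length (by omega)) le_rfl
    rw [e1]
    unfold ez
    rw [sg_length (by omega), div_pred (r := 0) hm hi' hXl hl1 hl2, Nat.cast_sub hi']
    push_cast
    ring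
  rw [hflow, hez, hXl', act_comp]
  have h2 := hC.s2 (act M (sg q l X))
  have hsum : gs M c b m R X q (0 :: ps S m K X 1 (q - 1)) + (b : ZMod R) ^ kx S m K X q *
      (((c (act M (sg q l X)) + 1 : ℤ) : ZMod R) - ((i' : ℕ) : ZMod R)) =
      gs M c b m R X q (0 :: ps S m K X 1 (q - 1)) -
        (b : ZMod R) ^ (kx S m K X q) * ((i' : ℕ) : ZMod R) +
        (b : ZMod R) ^ (kx S m K X q) * ((c (act M (sg q l X)) + 1 : ℤ) : ZMod R) := by
    ring
  rw [hsum]
  exact h2

/-- a block which starts with a big mark across the cut -/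
theorem val_start (hB : Bg S T m K h) {v : V} {C Z : List α} {d : ℕ}
    (hS3 : ∀ g B v (η : ℤ), (η = 0 ∨ η = 1) →
      f (((c g - η + n v B : ℤ) : ZMod R), B ∘ g) = v)
    (hR : RA M T S c n b m K h R v Z d) (hC0 : 0 < C.length) (hCm : C.length < m)
    (hw : win m 0 (C ++ Z) ∈ S) :
    f (flow M S c b m K R (C ++ Z) (C.length + d), act M ((C ++ Z).take (C.length + d))) = v := by
  have hm := hB.m0
  have hmK := hB.mK
  have hmd := hR.le hB
  have hed := hR.hed (by omega)
  have hZl := hR.len
  have hp1 : ps S m K (C ++ Z) 1 (C.length + d - m) =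
      (ps S m K Z 0 (d - m + 1)).map (C.length + ·) := by
    have e1 : C.length + d - m = (C.length - 1) + (d - m + 1) := by omega
    have e2 : 1 + (C.length - 1) = C.length := by omega
    rw [e1, ps_add, e2, ps_right hR.quiet, ps_nil, List.nil_append]
    rintro i h1 h2 ⟨h3, h4⟩
    exact h4 0 (by omega) (by omega) hw
  obtain ⟨η, hη, hη2⟩ := div_eta (a := C.length - 0) (e := (ps S m K Z 0 (d - m + 1)).headD d)
    (m := m) (by omega)
  have htail := tail_num hR C (q := 0) (by omega) η hed hη2
  have hcont := content (M := M) (u := C) (Z := Z) (q := 0)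
    (e := (ps S m K Z 0 (d - m + 1)).headD d) (d := d) (by omega) hed (by omega)
  have h3 := hS3 (act M (sg 0 (C.length + (ps S m K Z 0 (d - m + 1)).headD d) (C ++ Z)))
    (act M (sg ((ps S m K Z 0 (d - m + 1)).headD d) d Z)) v η hη
  have e0 : act M (C.take 0) = id := by
    funext y
    rw [List.take_zero]
    rfl
  unfold flow
  rw [hp1, htail, hcont, e0, Function.comp_id]
  exact h3

end sys

end Vale.Agent.P329.H730
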