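import Vale.Agent.P329.H730.Junc

set_option linter.all false

/-!
The states of the machine at a junction.
-/

namespace Vale.Agent.P329.H730

open Vale.Agent.P329 Vale.Agent.P329.Slow Vale.Agent.P329.Mark Vale.Agent.P329.Clock

section sys

variable {α V : Type} [AddCommGroup V] {M : α → V →+ V} {T S : Set (List α)}
  {c : (V → V) → ℤ} {n : V → (V → V) → ℤ} {b m K h R : ℕ} {f : ZMod R × (V → V) → V}

theorem ju_long {B : List α} (hB : h + m ≤ B.length) : ju M S c b m K h R f B =
    f (flow M S c b m K R B (B.length - h), act M (B.take (B.length - h))) := by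
  unfold ju
  rw [if_neg (by omega)]

theorem ju_short {B : List α} (hB : B.length < h + m) : ju M S c b m K h R f B = 0 := by
  unfold ju
  rw [if_pos hB]

/-- a big mark which overlaps both sides of a cut starts near the cut -/
theorem straddle (hB : Bg S T m K h) {X W : List α} {s : ℕ}
    (htail : ∀ i, X.length ≤ i + (K + 2 * m) → i + m ≤ X.length → win m i X ∉ S)
    (hs1 : s < X.length) (hs2 : X.length < s + h) (hs3 : s + h ≤ (X ++ W).length)
    (hw : win h s (X ++ W) ∈ T) : X.length < s + m := by
  by_contra hlt
  have hm := hB.m0
  have hmK := hB.mK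
  have h1 := hB.win0 hs3 hw
  rw [win_append (by omega)] at h1
  have h2 : s + (K + 2 * m) < X.length := by
    by_contra h3
    exact htail s (by omega) (by omega) h1
  obtain ⟨j, hj1, hj2, hj3⟩ := hB.dense' hs3 hw (i := X.length - (K + m)) (by omega) (by omega)
  rw [win_append (by omega)] at hj3
  exact htail j (by omega) (by omega) hj3

theorem LA.long (hB : Bg S T m K h) {y : V} {X : List α} (hL : LA M T S c n b m K h R f y X) :
    K + 2 * m < X.length := by
  have htail := hL.tail
  obtain ⟨q, i', hq0, hi', hXl, hAc, -⟩ := hL.zone
  have := LA.far hB htail hi' hXl hAc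
  omega

/-- the start of a junction: big marks which overlap both sides -/
theorem junc_short (hB : Bg S T m K h) {y : V} {X z : List α}
    (hL : LA M T S c n b m K h R f y X) (k : ℕ) (hk : k < h) (hz : k ≤ z.length) :
    Clock.run M T h (ju M S c b m K h R f) (y, X) (z.take k) = (y, X ++ z.take k) ∨
      ∃ C, Clock.run M T h (ju M S c b m K h R f) (y, X) (z.take k) = (0, C) ∧
        C <:+ X ++ z.take k ∧ h ≤ C.length ∧ C.length < m + k ∧ C.take h ∈ T := by
  have hm := hB.m0
  have hmK := hB.mK
  have hmh := hB.mh
  have hXh := hL.hlen
  have hXK := hL.long hB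
  induction k with
  | zero =>
    left
    rw [List.take_zero, Clock.run_nil, List.append_nil]
  | succ k ih =>
    have hc1 : z.take (k + 1) = z.take k ++ [z[k]] := by
      rw [List.take_append_getElem]
    have hlz : (z.take k).length = k := by rw [List.length_take]; omega
    rw [hc1, Clock.run_append, Clock.run_single]
    rcases ih (by omega) (by omega) with h0 | ⟨C, h1, h2, h3, h4, h5⟩
    · rw [h0]
      by_cases hq : h < (X ++ z.take k ++ [z[k]]).length ∧
        (X ++ z.take k ++ [z[k]]).drop ((X ++ z.take k ++ [z[k]]).length - h) ∈ T
      · right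
        rw [step_mark hq.1 hq.2]
        have hl : (X ++ z.take k ++ [z[k]]).length = X.length + k + 1 := by
          rw [List.length_append, List.length_append, hlz]
          rfl
        have hst : X.length < (X ++ z.take k ++ [z[k]]).length - h + m := by
          refine straddle (W := z.take k ++ [z[k]]) hB hL.tail (by omega) (by omega) ?_ ?_
          · rw [← List.append_assoc]
            omega
          · rw [← List.append_assoc, win_last (by omega)]
            exact hq.2
        have h6 := val_big (W := z.take k ++ [z[k]])
          (l := (X ++ z.take k ++ [z[k]]).length - h) hB hL (by omega) (by omega)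
        rw [← List.append_assoc] at h6
        rw [ju_long (by omega), h6]
        refine ⟨_, rfl, ?_, ?_, ?_, ?_⟩
        · rw [← List.append_assoc]
          exact List.drop_suffix _ _
        · rw [List.length_drop]; omega
        · rw [List.length_drop]; omega
        · rw [List.take_of_length_le (by rw [List.length_drop]; omega)]
          exact hq.2
      · left
        rw [step_quiet hq, List.append_assoc]
    · right
      rw [h1]
      have hs : C ++ [z[k]] <:+ X ++ (z.take k ++ [z[k]]) := by
        obtain ⟨s, hs⟩ := h2
        exact ⟨s, by rw [← List.append_assoc, hs, List.append_assoc]⟩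
      have hl : (C ++ [z[k]]).length = C.length + 1 := by
        rw [List.length_append]; rfl
      by_cases hq : h < (C ++ [z[k]]).length ∧
        (C ++ [z[k]]).drop ((C ++ [z[k]]).length - h) ∈ T
      · rw [step_mark hq.1 hq.2, ju_short (by omega), act_zero, add_zero]
        refine ⟨_, rfl, (List.drop_suffix _ _).trans hs, ?_, ?_, ?_⟩
        · rw [List.length_drop]; omega
        · rw [List.length_drop]; omega
        · rw [List.take_of_length_le (by rw [List.length_drop]; omega)]
          exact hq.2
      · rw [step_quiet hq]
        refine ⟨_, rfl, hs, by omega, by omega, ?_⟩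
        rw [List.take_append_of_le_length h3]
        exact h5

/-- the state after a junction does not depend on the left side -/
theorem junc_state (hB : Bg S T m K h)
    (hS3 : ∀ g B v (η : ℤ), (η = 0 ∨ η = 1) →
      f (((c g - η + n v B : ℤ) : ZMod R), B ∘ g) = v)
    {y v : V} {X Z : List α} {d : ℕ} (hL : LA M T S c n b m K h R f y X)
    (hR : RA M T S c n b m K h R v Z d) :
    Clock.run M T h (ju M S c b m K h R f) (y, X) Z = (v, win h d Z) := by
  have hm := hB.m0
  have hmK := hB.mK
  have hmh := hB.mh
  have hKd := hR.le hB
  have hZl := hR.len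
  have hXh := hL.hlen
  have hXK := hL.long hB
  have hlz : (Z.take (h - 1)).length = h - 1 := by rw [List.length_take]; omega
  have hlz' : (Z.drop (h - 1)).length = d + 1 := by
    rw [List.length_drop]; omega
  have key : ∀ (v' : V) (C' : List α), 0 < C'.length →
      Clock.run M T h (ju M S c b m K h R f) (v', C' ++ Z.take (h - 1)) (Z.drop (h - 1)) =
        (act M ((C' ++ Z).take (C'.length + d)) v' + ju M S c b m K h R f (C' ++ Z),
          win h d Z) := by
    intro v' C' hC'
    have e : C' ++ Z.take (h - 1) ++ Z.drop (h - 1) = C' ++ Z := by
      rw [List.append_assoc, List.take_append_drop]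
    have hl : (C' ++ Z).length = C'.length + (d + h) := by
      rw [List.length_append, hZl]
    have hl2 : (C' ++ Z).length - h = C'.length + d := by rw [hl]; omega
    have hw : (C' ++ Z).drop ((C' ++ Z).length - h) = win h d Z := by
      rw [hl2, ← win_last (m := h) (by omega), win_shift]
    rw [Clock.run_mark (by
      intro h0
      rw [h0] at hlz'
      simp at hlz'), e, hw, hl2]
    · rw [e]
      intro i hi0 hi1 hi2 hi3
      rw [List.length_append, hlz] at hi1
      rw [hl] at hi2
      obtain ⟨i', rfl⟩ : ∃ i', i = C'.length + i' := ⟨i - C'.length, by omega⟩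
      rw [win_shift] at hi3
      exact hR.nobig i' (by omega) hi3
    · rw [e, hl]; omega
    · rw [e, hw]; exact hR.big
  conv_lhs => rw [← List.take_append_drop (h - 1) Z]
  rw [Clock.run_append]
  rcases junc_short (z := Z) hB hL (h - 1) (by omega) (by omega) with
    h0 | ⟨C, h0, hs, hl1, hl2, hCU⟩
  · rw [h0, key _ _ (by omega)]
    have hl : (X ++ Z).length = X.length + (d + h) := by
      rw [List.length_append, hZl]
    rw [ju_long (by omega)]
    have hl2 : (X ++ Z).length - h = X.length + d := by rw [hl]; omega
    rw [hl2, val_plain hB hL hR]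
  · obtain ⟨C', rfl⟩ : ∃ C', C = C' ++ Z.take (h - 1) := by
      have h7 : Z.take (h - 1) <:+ C := by
        refine List.suffix_of_suffix_length_le (List.suffix_append X _) hs ?_
        rw [hlz]; omega
      obtain ⟨C', hC'⟩ := h7
      exact ⟨C', hC'.symm⟩
    rw [List.length_append, hlz] at hl1 hl2
    rw [h0, key _ _ (by omega), act_zero, zero_add]
    have hl : (C' ++ Z).length = C'.length + (d + h) := by
      rw [List.length_append, hZl]
    rw [ju_long (by omega)]
    have hl3 : (C' ++ Z).length - h = C'.length + d := by rw [hl]; omega
    rw [hl3]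
    rw [val_start hB hS3 hR (by omega) (by omega) ?_]
    have e : C' ++ Z.take (h - 1) ++ Z.drop (h - 1) = C' ++ Z := by
      rw [List.append_assoc, List.take_append_drop]
    refine hB.win0 (by omega) ?_
    rw [← e, win_append (by rw [List.length_append, hlz]; omega), win_zero]
    exact hCU

/-- the block before a cut -/
theorem LA_block (hB : Bg S T m K h) {y : V} {u : List α} {o : ℕ} (ho : o ≤ u.length)
    (hL : LA M T S c n b m K h R f y (u.drop (u.length - o))) (x : V) :
    ∃ v, Clock.run M T h (ju M S c b m K h R f) (x, []) u = (v, u.drop (u.length - o)) := by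
  have hm := hB.m0
  have hmh := hB.mh
  have hl : (u.drop (u.length - o)).length = o := by rw [List.length_drop]; omega
  have hmo := hL.hlen
  have hWl : ((u.drop (u.length - o)).take h).length = h := by rw [List.length_take]; omega
  obtain ⟨v, hv⟩ := Clock.run_win (M := M) (τ := ju M S c b m K h R f) x
    (u.take (u.length - o)) _ (by omega) hWl hL.big
  refine ⟨v, ?_⟩
  have h6 := Clock.run_block hv hWl (z := (u.drop (u.length - o)).drop h) (fun i hi h7 => by
    rw [List.take_append_drop] at h7 ⊢
    exact hL.nobig i hi h7)
  rw [List.take_append_drop, List.take_append_drop] at h6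
  exact h6

end sys

end Vale.Agent.P329.H730
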